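import Vale.Agent.P032.H383.Letters
import Vale.Agent.P032.H809.Side

/-!
# P032: the sweep at the direction of a neighbouring centre (helper780)

Several circles `S(z c)` in the sweep form of `H383/Letters.lean`.

* `LC_pal`, `RC_pal` : the letters of a limit column come from palettes which are seen on the circle
  from the left (from the right), arbitrarily near the point of the slot;
* `split_ang` : `Irr.side_split` in the angle coordinate;
* `LC_sub`, `RC_sub` : palettes of a limit column are subsets of eventual bounds;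
* `exists_LC`, `exists_RC` : every frequently seen palette is in a limit column;
* `third_col` : the third centre rule in column form;
* `Pair` : two centres at distance one, the time `0` is the direction of the second one.
-/

open Set Filter Topology Metric

noncomputable section

namespace Vale.Agent.P032.H780

open Vale.Agent.P032.Six Vale.Agent.P032.S5.H767 Vale.Agent.P032.S5.H122 Vale.Agent.P032.Sweep

variable {U : Fin 6 → Set ℂ} {T : ℂ → Set (Fin 6)} {κ Λ : Type}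

/-! ### Palettes seen from one side -/

/-- the palette `P` is seen on `S(z)` from the left of the angle `s` -/
def SeenL (T : ℂ → Set (Fin 6)) (z : ℂ) (s : ℝ) (P : Set (Fin 6)) : Prop :=
  ∃ᶠ w in 𝓝[<] s, w ∈ Lc T z ∧ T (pt z w) = P

/-- the palette `P` is seen on `S(z)` from the right of the angle `s` -/
def SeenR (T : ℂ → Set (Fin 6)) (z : ℂ) (s : ℝ) (P : Set (Fin 6)) : Prop :=
  ∃ᶠ w in 𝓝[>] s, w ∈ Lc T z ∧ T (pt z w) = P

theorem SeenL.sub {z : ℂ} {s : ℝ} {P X : Set (Fin 6)} (h : SeenL T z s P)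
    (hX : ∀ᶠ w in 𝓝[<] s, T (pt z w) ⊆ X) : P ⊆ X := by
  obtain ⟨w, ⟨-, h1⟩, h2⟩ := (Frequently.and_eventually h hX).exists
  exact h1 ▸ h2

theorem SeenR.sub {z : ℂ} {s : ℝ} {P X : Set (Fin 6)} (h : SeenR T z s P)
    (hX : ∀ᶠ w in 𝓝[>] s, T (pt z w) ⊆ X) : P ⊆ X := by
  obtain ⟨w, ⟨-, h1⟩, h2⟩ := (Frequently.and_eventually h hX).exists
  exact h1 ▸ h2

theorem nhd_ang (h : Irr U T) (z : ℂ) (s : ℝ) : ∀ᶠ w in 𝓝 s, T (pt z w) ⊆ T (pt z s) :=
  ((continuous_pt z).tendsto s).eventually (h.nhd (pt z s))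

theorem SeenL.sub_self (h : Irr U T) {z : ℂ} {s : ℝ} {P : Set (Fin 6)} (hP : SeenL T z s P) :
    P ⊆ T (pt z s) := hP.sub (mem_nhdsWithin_of_mem_nhds (nhd_ang h z s))

theorem SeenR.sub_self (h : Irr U T) {z : ℂ} {s : ℝ} {P : Set (Fin 6)} (hP : SeenR T z s P) :
    P ⊆ T (pt z s) := hP.sub (mem_nhdsWithin_of_mem_nhds (nhd_ang h z s))

/-- the letters of a left limit column come from palettes seen from the left -/
theorem LC_pal {z : κ → ℂ} {φ : ℝ} {lt : κ → Set (Fin 6) → Λ} {u : ℝ} {g : κ × Fin 6 → Λ}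
    (hg : g ∈ LC (Xl T z φ lt) u) (s : κ × Fin 6) :
    ∃ P, lt s.1 P = g s ∧ SeenL T (z s.1) (φ + u + (s.2.val : ℝ)) P := by
  set s₀ : ℝ := φ + u + (s.2.val : ℝ) with hs₀
  have h1 : ∃ᶠ w in 𝓝[<] s₀, w ∈ Oc T (z s.1) (lt s.1) (g s) := by
    rw [frequently_iff]
    intro V hV
    obtain ⟨c, hc, hsub⟩ := mem_nhdsLT_iff_exists_Ioo_subset.1 hV
    have hc : c < s₀ := hc
    have h2 : ∀ᶠ v in 𝓝[<] u, v ∈ Ioo (c - φ - (s.2.val : ℝ)) u :=
      Ioo_mem_nhdsLT (by rw [hs₀] at hc; linarith)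
    obtain ⟨v, ⟨-, hv⟩, hv2⟩ := (Frequently.and_eventually hg h2).exists
    have hv3 : φ + v + (s.2.val : ℝ) ∈ closure (Oc T (z s.1) (lt s.1) (g s)) := hv s
    have hv4 : Ioo c s₀ ∈ 𝓝 (φ + v + (s.2.val : ℝ)) :=
      Ioo_mem_nhds (by linarith [hv2.1]) (by rw [hs₀]; linarith [hv2.2])
    obtain ⟨w, hw1, hw2⟩ := mem_closure_iff_nhds.1 hv3 _ hv4
    exact ⟨w, hsub hw1, hw2⟩
  by_contra hcon
  push Not at hcon
  have h2 : ∀ P : Set (Fin 6), ∀ᶠ w in 𝓝[<] s₀, lt s.1 P = g s →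
      ¬ (w ∈ Lc T (z s.1) ∧ T (pt (z s.1) w) = P) := by
    intro P
    by_cases hP : lt s.1 P = g s
    · have := not_frequently.1 (hcon P hP)
      filter_upwards [this] with w hw _ using hw
    · exact Eventually.of_forall fun w hw => absurd hw hP
  obtain ⟨w, hw1, hw2⟩ := (h1.and_eventually (eventually_all.2 h2)).exists
  exact hw2 (T (pt (z s.1) w)) hw1.2 ⟨hw1.1, rfl⟩

/-- the letters of a right limit column come from palettes seen from the right -/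
theorem RC_pal {z : κ → ℂ} {φ : ℝ} {lt : κ → Set (Fin 6) → Λ} {u : ℝ} {g : κ × Fin 6 → Λ}
    (hg : g ∈ RC (Xl T z φ lt) u) (s : κ × Fin 6) :
    ∃ P, lt s.1 P = g s ∧ SeenR T (z s.1) (φ + u + (s.2.val : ℝ)) P := by
  set s₀ : ℝ := φ + u + (s.2.val : ℝ) with hs₀
  have h1 : ∃ᶠ w in 𝓝[>] s₀, w ∈ Oc T (z s.1) (lt s.1) (g s) := by
    rw [frequently_iff]
    intro V hV
    obtain ⟨c, hc, hsub⟩ := mem_nhdsGT_iff_exists_Ioo_subset.1 hV
    have hc : s₀ < c := hc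
    have h2 : ∀ᶠ v in 𝓝[>] u, v ∈ Ioo u (c - φ - (s.2.val : ℝ)) :=
      Ioo_mem_nhdsGT (by rw [hs₀] at hc; linarith)
    obtain ⟨v, ⟨-, hv⟩, hv2⟩ := (Frequently.and_eventually hg h2).exists
    have hv3 : φ + v + (s.2.val : ℝ) ∈ closure (Oc T (z s.1) (lt s.1) (g s)) := hv s
    have hv4 : Ioo s₀ c ∈ 𝓝 (φ + v + (s.2.val : ℝ)) :=
      Ioo_mem_nhds (by rw [hs₀]; linarith [hv2.1]) (by linarith [hv2.2])
    obtain ⟨w, hw1, hw2⟩ := mem_closure_iff_nhds.1 hv3 _ hv4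
    exact ⟨w, hsub hw1, hw2⟩
  by_contra hcon
  push Not at hcon
  have h2 : ∀ P : Set (Fin 6), ∀ᶠ w in 𝓝[>] s₀, lt s.1 P = g s →
      ¬ (w ∈ Lc T (z s.1) ∧ T (pt (z s.1) w) = P) := by
    intro P
    by_cases hP : lt s.1 P = g s
    · have := not_frequently.1 (hcon P hP)
      filter_upwards [this] with w hw _ using hw
    · exact Eventually.of_forall fun w hw => absurd hw hP
  obtain ⟨w, hw1, hw2⟩ := (h1.and_eventually (eventually_all.2 h2)).exists
  exact hw2 (T (pt (z s.1) w)) hw1.2 ⟨hw1.1, rfl⟩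

/-! ### Frequently seen letters are in limit columns -/

/-- every letter which is seen from the left is in a left limit column -/
theorem exists_LC [Finite κ] [Finite Λ] {z : κ → ℂ} {φ : ℝ} {lt : κ → Set (Fin 6) → Λ}
    {L : (κ × Fin 6 → Λ) → Prop} (w : Sw (Xl T z φ lt) L) {u : ℝ} {s : κ × Fin 6}
    {P : Set (Fin 6)} (hP : SeenL T (z s.1) (φ + u + (s.2.val : ℝ)) P) :
    ∃ g ∈ LC (Xl T z φ lt) u, g s = lt s.1 P := by
  by_contra hcon
  push Not at hcon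
  have h1 := near_left' w u
  obtain ⟨c, hc, hsub⟩ := mem_nhdsLT_iff_exists_Ioo_subset.1 h1
  have hc : c < u := hc
  have h2 : ∀ᶠ x in 𝓝[<] (φ + u + (s.2.val : ℝ)), x ∈ Ioo (φ + c + (s.2.val : ℝ))
      (φ + u + (s.2.val : ℝ)) := Ioo_mem_nhdsLT (by linarith)
  obtain ⟨x, ⟨hx1, hx2⟩, hx3⟩ := (Frequently.and_eventually hP h2).exists
  -- near `x` the letter is constant: a generic time
  have hx1' : ∀ᶠ v in 𝓝 x, T (pt (z s.1) v) = T (pt (z s.1) x) := hx1
  have hop : {v : ℝ | φ + v + (s.2.val : ℝ) ∈ Lc T (z s.1) ∧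
      T (pt (z s.1) (φ + v + (s.2.val : ℝ))) = P} ∈ 𝓝 (x - φ - (s.2.val : ℝ)) := by
    have ht : Tendsto (fun v : ℝ => φ + v + (s.2.val : ℝ)) (𝓝 (x - φ - (s.2.val : ℝ))) (𝓝 x) := by
      have hc : Continuous fun v : ℝ => φ + v + (s.2.val : ℝ) := by fun_prop
      have h9 := hc.tendsto (x - φ - (s.2.val : ℝ))
      have e9 : φ + (x - φ - (s.2.val : ℝ)) + (s.2.val : ℝ) = x := by ring
      simp only [e9] at h9
      exact h9
    filter_upwards [ht.eventually ((Lc_open (z s.1)).mem_nhds hx1), ht.eventually hx1']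
      with v h3 h4
    exact ⟨h3, h4.trans hx2⟩
  have hI : Ioo c u ∈ 𝓝 (x - φ - (s.2.val : ℝ)) :=
    Ioo_mem_nhds (by linarith [hx3.1]) (by linarith [hx3.2])
  obtain ⟨N, hN, hNo, hxN⟩ := _root_.mem_nhds_iff.1 (inter_mem hop hI)
  obtain ⟨v, hvN, hvG⟩ := w.dense_Gn.inter_open_nonempty N hNo ⟨_, hxN⟩
  obtain ⟨⟨h5, h6⟩, h7⟩ := hN hvN
  obtain ⟨g, hg⟩ := w.exists_av v
  have h8 : g s = lt s.1 P := by
    rw [← h6]
    exact ((Xl_Lc h5).1 (hg s)).symm
  exact hcon g (hsub h7 hvG g hg) h8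
where
  near_left' {X : κ × Fin 6 → Λ → Set ℝ} {L : (κ × Fin 6 → Λ) → Prop} (_ : Sw X L) (u : ℝ) :
      ∀ᶠ v in 𝓝[<] u, v ∈ Gn X → ∀ h, Av X v h → h ∈ LC X u := Sw.near_left u

/-- every letter which is seen from the right is in a right limit column -/
theorem exists_RC [Finite κ] [Finite Λ] {z : κ → ℂ} {φ : ℝ} {lt : κ → Set (Fin 6) → Λ}
    {L : (κ × Fin 6 → Λ) → Prop} (w : Sw (Xl T z φ lt) L) {u : ℝ} {s : κ × Fin 6}
    {P : Set (Fin 6)} (hP : SeenR T (z s.1) (φ + u + (s.2.val : ℝ)) P) :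
    ∃ g ∈ RC (Xl T z φ lt) u, g s = lt s.1 P := by
  by_contra hcon
  push Not at hcon
  have h1 : ∀ᶠ v in 𝓝[>] u, v ∈ Gn (Xl T z φ lt) → ∀ h, Av (Xl T z φ lt) v h →
      h ∈ RC (Xl T z φ lt) u := Sw.near_right u
  obtain ⟨c, hc, hsub⟩ := mem_nhdsGT_iff_exists_Ioo_subset.1 h1
  have hc : u < c := hc
  have h2 : ∀ᶠ x in 𝓝[>] (φ + u + (s.2.val : ℝ)), x ∈ Ioo (φ + u + (s.2.val : ℝ))
      (φ + c + (s.2.val : ℝ)) := Ioo_mem_nhdsGT (by linarith)
  obtain ⟨x, ⟨hx1, hx2⟩, hx3⟩ := (Frequently.and_eventually hP h2).exists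
  have hx1' : ∀ᶠ v in 𝓝 x, T (pt (z s.1) v) = T (pt (z s.1) x) := hx1
  have hop : {v : ℝ | φ + v + (s.2.val : ℝ) ∈ Lc T (z s.1) ∧
      T (pt (z s.1) (φ + v + (s.2.val : ℝ))) = P} ∈ 𝓝 (x - φ - (s.2.val : ℝ)) := by
    have ht : Tendsto (fun v : ℝ => φ + v + (s.2.val : ℝ)) (𝓝 (x - φ - (s.2.val : ℝ))) (𝓝 x) := by
      have hc : Continuous fun v : ℝ => φ + v + (s.2.val : ℝ) := by fun_prop
      have h9 := hc.tendsto (x - φ - (s.2.val : ℝ))
      have e9 : φ + (x - φ - (s.2.val : ℝ)) + (s.2.val : ℝ) = x := by ring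
      simp only [e9] at h9
      exact h9
    filter_upwards [ht.eventually ((Lc_open (z s.1)).mem_nhds hx1), ht.eventually hx1']
      with v h3 h4
    exact ⟨h3, h4.trans hx2⟩
  have hI : Ioo u c ∈ 𝓝 (x - φ - (s.2.val : ℝ)) :=
    Ioo_mem_nhds (by linarith [hx3.1]) (by linarith [hx3.2])
  obtain ⟨N, hN, hNo, hxN⟩ := _root_.mem_nhds_iff.1 (inter_mem hop hI)
  obtain ⟨v, hvN, hvG⟩ := w.dense_Gn.inter_open_nonempty N hNo ⟨_, hxN⟩
  obtain ⟨⟨h5, h6⟩, h7⟩ := hN hvN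
  obtain ⟨g, hg⟩ := w.exists_av v
  have h8 : g s = lt s.1 P := by
    rw [← h6]
    exact ((Xl_Lc h5).1 (hg s)).symm
  exact hcon g (hsub h7 hvG g hg) h8

/-! ### Side split in the angle coordinate -/

theorem pt_add (z : ℂ) (s t : ℝ) : z + (pt z s - z) * cis t = pt z (s + t / (Real.pi / 3)) := by
  have hpi : Real.pi / 3 ≠ 0 := by positivity
  unfold pt
  rw [add_sub_cancel_left, ← S5.H767.cis_add]
  congr 2
  field_simp

theorem br_right {z : ℂ} {s : ℝ} {X : Set (Fin 6)} (h : Br T z (pt z s) 1 X) :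
    ∀ᶠ w in 𝓝[>] s, T (pt z w) ⊆ X := by
  have hpi : (0 : ℝ) < Real.pi / 3 := by positivity
  have ht : Tendsto (fun w : ℝ => (w - s) * (Real.pi / 3)) (𝓝[>] s) (𝓝[>] 0) := by
    refine tendsto_nhdsWithin_iff.2 ⟨?_, ?_⟩
    · have hc : Continuous fun w : ℝ => (w - s) * (Real.pi / 3) := by fun_prop
      have := (hc.tendsto s).mono_left (nhdsWithin_le_nhds (s := Ioi s))
      simpa using this
    · filter_upwards [self_mem_nhdsWithin] with w hw
      have hw : s < w := hw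
      exact mul_pos (by linarith) hpi
  filter_upwards [ht.eventually h] with w hw
  rw [one_mul, pt_add, mul_div_cancel_right₀ _ hpi.ne', add_sub_cancel] at hw
  exact hw

theorem br_left {z : ℂ} {s : ℝ} {X : Set (Fin 6)} (h : Br T z (pt z s) (-1) X) :
    ∀ᶠ w in 𝓝[<] s, T (pt z w) ⊆ X := by
  have hpi : (0 : ℝ) < Real.pi / 3 := by positivity
  have ht : Tendsto (fun w : ℝ => (s - w) * (Real.pi / 3)) (𝓝[<] s) (𝓝[>] 0) := by
    refine tendsto_nhdsWithin_iff.2 ⟨?_, ?_⟩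
    · have hc : Continuous fun w : ℝ => (s - w) * (Real.pi / 3) := by fun_prop
      have := (hc.tendsto s).mono_left (nhdsWithin_le_nhds (s := Iio s))
      simpa using this
    · filter_upwards [self_mem_nhdsWithin] with w hw
      have hw : w < s := hw
      exact mul_pos (by linarith) hpi
  filter_upwards [ht.eventually h] with w hw
  have e : -1 * ((s - w) * (Real.pi / 3)) = (w - s) * (Real.pi / 3) := by ring
  rw [e, pt_add, mul_div_cancel_right₀ _ hpi.ne', add_sub_cancel] at hw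
  exact hw

/-- the four possible splits of a two-pair point -/
def Split4 (p q r s : Fin 6) (X Y : Set (Fin 6)) : Prop :=
  (X = {p, r} ∧ Y = {q, s}) ∨ (X = {q, s} ∧ Y = {p, r}) ∨
    (X = {p, s} ∧ Y = {q, r}) ∨ (X = {q, r} ∧ Y = {p, s})

/-- **side split in the angle coordinate** -/
theorem split_ang (h : Irr U T) {z : ℂ} {s₀ : ℝ} {p q r s : Fin 6}
    (hy : DPt T (pt z s₀) p q r s) : ∃ X Y, Split4 p q r s X Y ∧
      (∀ᶠ w in 𝓝[<] s₀, T (pt z w) ⊆ X) ∧ ∀ᶠ w in 𝓝[>] s₀, T (pt z w) ⊆ Y := by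
  obtain ⟨X, Y, hXY, τ, hτ, h1, h2⟩ := h.side_split hy (dist_pt z s₀)
  rcases hτ with rfl | rfl
  · refine ⟨Y, X, ?_, br_left h2, br_right h1⟩
    rcases hXY with ⟨rfl, rfl⟩ | ⟨rfl, rfl⟩
    · exact Or.inr (Or.inl ⟨rfl, rfl⟩)
    · exact Or.inr (Or.inr (Or.inr ⟨rfl, rfl⟩))
  · rw [neg_neg] at h2
    refine ⟨X, Y, ?_, br_left h1, br_right h2⟩
    rcases hXY with ⟨rfl, rfl⟩ | ⟨rfl, rfl⟩
    · exact Or.inl ⟨rfl, rfl⟩
    · exact Or.inr (Or.inr (Or.inl ⟨rfl, rfl⟩))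

/-- the split for the limit columns: letters before and after a two-pair point of the circle -/
theorem split_col (h : Irr U T) {z : κ → ℂ} {φ u : ℝ} {lt : κ → Set (Fin 6) → Λ} {c : κ}
    {j : Fin 6} {p q r s : Fin 6} (hy : DPt T (pt (z c) (φ + u + (j.val : ℝ))) p q r s) :
    ∃ X Y, Split4 p q r s X Y ∧
      (∀ g ∈ LC (Xl T z φ lt) u, ∃ P, lt c P = g (c, j) ∧ P ⊆ X) ∧
      ∀ g ∈ RC (Xl T z φ lt) u, ∃ P, lt c P = g (c, j) ∧ P ⊆ Y := by
  obtain ⟨X, Y, hXY, h1, h2⟩ := split_ang h hy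
  refine ⟨X, Y, hXY, fun g hg => ?_, fun g hg => ?_⟩
  · obtain ⟨P, hP, hS⟩ := LC_pal hg (c, j)
    exact ⟨P, hP, hS.sub h1⟩
  · obtain ⟨P, hP, hS⟩ := RC_pal hg (c, j)
    exact ⟨P, hP, hS.sub h2⟩

/-! ### The third centre rule in column form -/

/-- the third centre rule on a circle, angle form: if `v` is at distance one from `pt z s`, off the
line through the centre, and has the colour `t`, then palettes without `t` are seen -/
theorem third_seen (h : Irr U T) {z v : ℂ} {s : ℝ} {t : Fin 6} (hv : dist (pt z s) v = 1)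
    (htv : t ∈ T v) (h1 : v ≠ z) (h2 : v + z ≠ 2 * pt z s) :
    ∃ P, t ∉ P ∧ (SeenL T z s P ∨ SeenR T z s P) := by
  by_contra hcon
  push Not at hcon
  have hL : ∀ P : Set (Fin 6), ∀ᶠ w in 𝓝[<] s, t ∉ P → ¬ (w ∈ Lc T z ∧ T (pt z w) = P) := by
    intro P
    by_cases hP : t ∈ P
    · exact Eventually.of_forall fun w hw => absurd hP hw
    · filter_upwards [not_frequently.1 (hcon P hP).1] with w hw _ using hw
  have hR : ∀ P : Set (Fin 6), ∀ᶠ w in 𝓝[>] s, t ∉ P → ¬ (w ∈ Lc T z ∧ T (pt z w) = P) := by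
    intro P
    by_cases hP : t ∈ P
    · exact Eventually.of_forall fun w hw => absurd hP hw
    · filter_upwards [not_frequently.1 (hcon P hP).2] with w hw _ using hw
  have hev : ∀ᶠ w in 𝓝[≠] s, w ∈ Lc T z → t ∈ T (pt z w) := by
    rw [← nhdsLT_sup_nhdsGT, eventually_sup]
    constructor
    · filter_upwards [eventually_all.2 hL] with w hw h3
      by_contra h4
      exact hw _ h4 ⟨h3, rfl⟩
    · filter_upwards [eventually_all.2 hR] with w hw h3
      by_contra h4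
      exact hw _ h4 ⟨h3, rfl⟩
  -- the closed set of the angles with the colour `t`
  obtain ⟨N, hN, hNo, hsN⟩ := _root_.mem_nhds_iff.1 (eventually_nhdsWithin_iff.1 hev)
  have hcl : IsClosed {w : ℝ | t ∈ T (pt z w)} := (h.closed t).preimage (continuous_pt z)
  have hD : Dense (Lc T z ∩ {s}ᶜ) :=
    (Lc_dense h z).inter_of_isOpen_right (dense_compl_singleton s) isOpen_compl_singleton
  have hall : ∀ w ∈ N, t ∈ T (pt z w) := by
    intro w hw
    have h5 : w ∈ closure (N ∩ (Lc T z ∩ {s}ᶜ)) := hD.open_subset_closure_inter hNo hw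
    have h6 : N ∩ (Lc T z ∩ {s}ᶜ) ⊆ {w : ℝ | t ∈ T (pt z w)} := fun x hx => hN hx.1 hx.2.2 hx.2.1
    exact closure_minimal h6 hcl h5
  have hcirc : ∀ᶠ q in 𝓝[sphere z 1] (pt z s), t ∈ T q :=
    ev_circle z (p := fun q => t ∈ T q) (by filter_upwards [hNo.mem_nhds hsN] with w hw using hall w hw)
  rcases h.third (dist_pt z s) hcirc hv htv with h7 | h7
  · exact h1 h7
  · exact h2 h7

/-- **the third centre rule in column form** (letters = palettes) -/
theorem third_col [Finite κ] (h : Irr U T) {z : κ → ℂ} {φ u : ℝ} {c : κ} {j : Fin 6} {v : ℂ}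
    {t : Fin 6} (hv : dist (pt (z c) (φ + u + (j.val : ℝ))) v = 1) (htv : t ∈ T v)
    (h1 : v ≠ z c) (h2 : v + z c ≠ 2 * pt (z c) (φ + u + (j.val : ℝ))) :
    ∃ g ∈ LC (Xl T z φ fun (_ : κ) (P : Set (Fin 6)) => P) u ∪
      RC (Xl T z φ fun (_ : κ) (P : Set (Fin 6)) => P) u, t ∉ g (c, j) := by
  obtain ⟨P, htP, hP | hP⟩ := third_seen h hv htv h1 h2
  · obtain ⟨g, hg, hgP⟩ := exists_LC (sw_pal h z φ) (u := u) (s := (c, j)) hP
    exact ⟨g, Or.inl hg, by rw [hgP]; exact htP⟩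
  · obtain ⟨g, hg, hgP⟩ := exists_RC (sw_pal h z φ) (u := u) (s := (c, j)) hP
    exact ⟨g, Or.inr hg, by rw [hgP]; exact htP⟩

end Vale.Agent.P032.H780
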