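import Vale.Agent.P032.H780.Special
import Vale.Agent.P032.H187.Swap

/-!
# P032: the lattice points of a unit pair at the special time (helper780)

`y = pt z φ`.  At the time `0` the slot `(z, 0)` is `y`, the slot `(y, 3)` is `z`, the apexes are the
slots `(z, 1) = (y, 2)` and `(z, 5) = (y, 4)`.
-/

open Set Filter Topology Metric

noncomputable section

namespace Vale.Agent.P032.H780

open Vale.Agent.P032.Six Vale.Agent.P032.S5.H767 Vale.Agent.P032.S5.H122 Vale.Agent.P032.Sweep

theorem pt_shift (z y : ℂ) (s : ℝ) : pt y s = pt z s + (y - z) := by unfold pt; ring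

theorem dist_prod (z y : ℂ) (s : ℝ) : dist (pt z s) (pt y s) = dist z y := by
  rw [pt_shift z y, dist_eq_norm, dist_eq_norm]; congr 1; ring

variable {z y : ℂ} {φ : ℝ}

theorem dist_zy (hy : pt z φ = y) : dist z y = 1 := by
  rw [← hy, dist_comm]; exact dist_pt z φ

/-- the centre `z` on the circle of `y` -/
theorem pt_back (hy : pt z φ = y) : pt y (φ + 3) = z := by
  rw [pt_shift z y, pt_three, hy]; ring

/-- the first apex -/
theorem pt_apex (hy : pt z φ = y) : pt z (φ + 1) = pt y (φ + 2) := by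
  have h1 := pt_sum z φ
  rw [pt_shift z y, ← hy]
  linear_combination -h1

/-- the second apex -/
theorem pt_apex' (hy : pt z φ = y) : pt z (φ + 5) = pt y (φ + 4) := by
  have h1 := pt_sum z (φ + 4)
  have h2 : pt z (φ + 4 + 2) = y := by
    rw [show φ + 4 + 2 = φ + 6 by ring, pt_six, hy]
  rw [h2, show φ + 4 + 1 = φ + 5 by ring] at h1
  rw [pt_shift z y]
  linear_combination -h1

/-- other slots of `S(z)` are not `y` -/
theorem pt_ne_y (hy : pt z φ = y) {j : Fin 6} (hj : j ≠ 0) : pt z (φ + (j.val : ℝ)) ≠ y := by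
  intro h
  obtain ⟨n, hn⟩ := pt_eq_iff (h.trans hy.symm)
  have h1 : (j.val : ℝ) = 6 * (n : ℝ) := by linarith
  have h2 : ((j.val : ℤ) : ℝ) = ((6 * n : ℤ) : ℝ) := by push_cast; exact h1
  have h3 : (j.val : ℤ) = 6 * n := by exact_mod_cast h2
  have h4 : j.val ≠ 0 := fun h0 => hj (Fin.ext h0)
  omega

/-- other slots of `S(z)` are not antipodal to `y` -/
theorem pt_add_y_ne (hy : pt z φ = y) {j : Fin 6} (hj : j ≠ 3) :
    pt z (φ + (j.val : ℝ)) + y ≠ 2 * z := by
  intro h
  have h0 : pt z (φ + (j.val : ℝ)) = pt z (φ + 3) := by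
    rw [pt_three, hy]; linear_combination h
  obtain ⟨n, hn⟩ := pt_eq_iff h0
  have h1 : (j.val : ℝ) = 3 + 6 * (n : ℝ) := by linarith
  have h2 : ((j.val : ℤ) : ℝ) = ((3 + 6 * n : ℤ) : ℝ) := by push_cast; exact h1
  have h3 : (j.val : ℤ) = 3 + 6 * n := by exact_mod_cast h2
  have h4 : j.val ≠ 3 := fun h0 => hj (Fin.ext h0)
  omega

end Vale.Agent.P032.H780
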