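import Vale.Agent.P032.H747.PairI
import Vale.Agent.P032.H780.PairGeo

/-!
# P032: two circles with centres at distance one, the special time (helper780)

`Pr.loc_ok`, `Pr.adj_ok`, `Pr.crs_ok`, `Pr.opp_ok`, `Pr.ty_ok` : the local rules at any time, slot by
slot.  `Pr.split_y`, `Pr.split_z` : the split at the two centres.  `Pr.sp` : a left and a right limit
column at the special time satisfy `Sp`.
-/

open Set Filter Topology Metric

noncomputable section

namespace Vale.Agent.P032.H747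

open Vale.Agent.P032.Six Vale.Agent.P032.S5.H767 Vale.Agent.P032.S5.H122 Vale.Agent.P032.Sweep
  Vale.Agent.P032.H780 Vale.Agent.P032.H187

variable {U : Fin 6 → Set ℂ} {T : ℂ → Set (Fin 6)} {z y : ℂ} {N π : Fin 6 → Fin 6} {ty : Fin 3}
  {E : Fin 2 → Fin 4 → Fin 4 → Bool} {φ u : ℝ}

namespace Pr

/-! ### The local rules, slot by slot, at any time -/

/-- the point of the slot is not the other centre -/
def Off (z y : ℂ) (φ u : ℝ) (k : Fin 2) (j : Fin 6) : Prop :=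
  pp z y φ u k j ≠ z ∧ pp z y φ u k j ≠ y

variable (P : Pr U T z y N π ty E)
include P

omit P in
theorem dist_pp (k : Fin 2) (j : Fin 6) : dist (pp z y φ u k j) (ctr z y k) = 1 := dist_pt _ _

theorem four (k : Fin 2) : (T (ctr z y k)).ncard = 4 := by
  have hn := (P.ck k).nd
  rw [(P.ck k).pal]
  have h1 : (↑([cn N π k 0, cn N π k 1, cn N π k 2, cn N π k 3] : List (Fin 6)).toFinset :
      Set (Fin 6)) = {cn N π k 0, cn N π k 1, cn N π k 2, cn N π k 3} := by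
    ext i; simp
  rw [← h1, Set.ncard_coe_finset, List.toFinset_card_of_nodup]
  · rfl
  · exact hn.sublist (by simp)

/-- points with at most three colours or the palette of the centre -/
theorem le_or_eq {k : Fin 2} {j : Fin 6} (h : Off z y φ u k j) :
    (T (pp z y φ u k j)).ncard ≤ 3 ∨ T (pp z y φ u k j) = T (ctr z y k) := by
  fin_cases k
  · exact P.pz _ (dist_pt _ _) h.2
  · exact P.py _ (dist_pt _ _) h.1

theorem le_of_tau {k : Fin 2} {j : Fin 6} (h : Off z y φ u k j)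
    (ht : tau T z y φ u (k, j) ≠ true) : (T (pp z y φ u k j)).ncard ≤ 3 := by
  rcases P.le_or_eq h with h1 | h1
  · exact h1
  · exact absurd (tau_true.2 h1) ht

/-- at a point with the palette of the centre only pair letters -/
theorem two_le {k : Fin 2} {j : Fin 6} {l : Fin 4} (ht : T (pp z y φ u k j) = T (ctr z y k))
    (hl : pp z y φ u k j ∈ Ls T z y N π k l) : 2 ≤ l.val := by
  have hn := (P.ck k).nd
  simp only [List.nodup_cons, List.mem_cons, List.not_mem_nil, or_false, not_or, List.nodup_nil,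
    and_true, not_false_eq_true] at hn
  obtain ⟨⟨ab, ac, ad, ae, af⟩, ⟨bc, bd, be, bf⟩, ⟨cd, ce, cf⟩, ⟨de, df⟩, ef⟩ := hn
  by_contra hcon
  have h4 : l = 0 ∨ l = 1 ∨ l = 2 ∨ l = 3 := by fin_cases l <;> decide
  rcases h4 with rfl | rfl | rfl | rfl
  · have h1 := hl.2
    rw [ht, (P.ck k).pal] at h1
    simp only [mem_insert_iff, mem_singleton_iff] at h1
    rcases h1 with h1 | h1 | h1 | h1
    · exact ae h1.symm
    · exact be h1.symm
    · exact ce h1.symm
    · exact de h1.symm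
  · have h1 := hl.2
    rw [ht, (P.ck k).pal] at h1
    simp only [mem_insert_iff, mem_singleton_iff] at h1
    rcases h1 with h1 | h1 | h1 | h1
    · exact af h1.symm
    · exact bf h1.symm
    · exact cf h1.symm
    · exact df h1.symm
  · exact hcon (by decide)
  · exact hcon (by decide)

theorem ty_ok {k : Fin 2} {j : Fin 6} {l : Fin 4} (hl : u ∈ XP T z y N π φ (k, j) l) :
    TyOK ty k l := by
  intro hk
  subst hk
  have h1 := P.mem_Ls hl
  have h4 : l = 0 ∨ l = 1 ∨ l = 2 ∨ l = 3 := by fin_cases l <;> decide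
  have e2 : cn N π 1 0 = N (π 0) ∧ cn N π 1 1 = N (π 1) ∧ cn N π 1 2 = N (π 2) ∧
      cn N π 1 3 = N (π 3) := ⟨rfl, rfl, rfl, rfl⟩
  constructor
  · intro h0
    obtain ⟨g1, g2⟩ := P.ty0 h0
    rcases h4 with rfl | rfl | rfl | rfl
    · decide
    · decide
    · exfalso
      have h5 : pp z y φ u 1 j ∈ closure (Ex T y {N (π 0), N (π 1)}) := h1
      rw [g1, closure_empty] at h5
      exact h5
    · exfalso
      have h5 : pp z y φ u 1 j ∈ closure (Ex T y {N (π 2), N (π 3)}) := h1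
      rw [g2, closure_empty] at h5
      exact h5
  · intro h0
    obtain ⟨-, g2⟩ := P.ty1 h0
    rcases h4 with rfl | rfl | rfl | rfl
    · decide
    · decide
    · decide
    · exfalso
      have h5 : pp z y φ u 1 j ∈ closure (Ex T y {N (π 2), N (π 3)}) := h1
      rw [g2, closure_empty] at h5
      exact h5

theorem loc_ok {k : Fin 2} {j : Fin 6} {l m : Fin 4} (ho : Off z y φ u k j)
    (hl : u ∈ XP T z y N π φ (k, j) l) (hm : u ∈ XP T z y N π φ (k, j) m) :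
    LocOK E (tau T z y φ u (k, j)) k l m := by
  have kl := P.mem_Ls hl
  have km := P.mem_Ls hm
  refine ⟨fun ht => ?_, fun ht => ?_⟩
  · have ht' := tau_true.1 ht
    exact ⟨P.two_le ht' kl, P.two_le ht' km⟩
  · have h3 := P.le_of_tau ho (by rw [ht]; decide)
    refine ⟨?_, ?_, P.hE k _ l m (dist_pt _ _) h3 kl km⟩
    · rintro ⟨rfl, rfl⟩
      exact (P.ck k).noAC h3 kl km
    · rintro ⟨rfl, rfl⟩
      exact (P.ck k).noAC h3 km kl

omit P in
theorem dist_pp_succ (k : Fin 2) (j : Fin 6) :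
    dist (pp z y φ u k j) (pp z y φ u k (j + 1)) = 1 := by
  unfold pp
  rw [pt_succ]
  exact dist_pt_one _ _

theorem adj_ok {k : Fin 2} {j : Fin 6} {l m l' m' : Fin 4} (ho : Off z y φ u k j)
    (ho' : Off z y φ u k (j + 1)) (hl : u ∈ XP T z y N π φ (k, j) l)
    (hm : u ∈ XP T z y N π φ (k, j) m) (hl' : u ∈ XP T z y N π φ (k, j + 1) l')
    (hm' : u ∈ XP T z y N π φ (k, j + 1) m') :
    AdjOK (tau T z y φ u (k, j)) (tau T z y φ u (k, j + 1)) l m l' m' := by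
  intro hlm e1 e2
  subst e1
  subst e2
  have kl := P.mem_Ls hl
  have km := P.mem_Ls hm
  have kl' := P.mem_Ls hl'
  have km' := P.mem_Ls hm'
  -- two pair letters at a point with at most three colours
  have two : ∀ {j : Fin 6}, (T (pp z y φ u k j)).ncard ≤ 3 → pp z y φ u k j ∈ Ls T z y N π k l →
      pp z y φ u k j ∈ Ls T z y N π k m → 2 ≤ l.val → 2 ≤ m.val → False := by
    intro j h3 h1 h2 g1 g2
    have k4 : ∀ n : Fin 4, 2 ≤ n.val → n = 2 ∨ n = 3 := by decide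
    rcases k4 l g1 with rfl | rfl <;> rcases k4 m g2 with rfl | rfl
    · exact hlm rfl
    · exact (P.ck k).noAC h3 h1 h2
    · exact (P.ck k).noAC h3 h2 h1
    · exact hlm rfl
  rcases P.le_or_eq ho with h3 | ht
  · rcases P.le_or_eq ho' with h3' | ht'
    · exact ((P.ck k).noswap hlm (dist_pp_succ k j) h3 h3' kl km km' kl').elim
    · exact (two h3 kl km (P.two_le ht' km') (P.two_le ht' kl')).elim
  · rcases P.le_or_eq ho' with h3' | ht'
    · exact (two h3' km' kl' (P.two_le ht kl) (P.two_le ht km)).elim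
    · exact ⟨tau_true.2 ht, tau_true.2 ht'⟩

theorem isLt (k : Fin 2) (l : Fin 4) : IsLt T (ctr z y k) (N '' (KK π k l : Set (Fin 6))) := by
  rw [← col_eq]
  have hn := (P.ck k).nd
  simp only [List.nodup_cons, List.mem_cons, List.not_mem_nil, or_false, not_or, List.nodup_nil,
    and_true, not_false_eq_true] at hn
  obtain ⟨⟨ab, ac, ad, ae, af⟩, ⟨bc, bd, be, bf⟩, ⟨cd, ce, cf⟩, ⟨de, df⟩, ef⟩ := hn
  have hp := (P.ck k).pal
  have h4 : l = 0 ∨ l = 1 ∨ l = 2 ∨ l = 3 := by fin_cases l <;> decide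
  rcases h4 with rfl | rfl | rfl | rfl
  · refine Or.inl ⟨cn N π k 4, ?_, rfl⟩
    rw [hp]
    simp only [mem_insert_iff, mem_singleton_iff, not_or]
    exact ⟨Ne.symm ae, Ne.symm be, Ne.symm ce, Ne.symm de⟩
  · refine Or.inl ⟨cn N π k 5, ?_, rfl⟩
    rw [hp]
    simp only [mem_insert_iff, mem_singleton_iff, not_or]
    exact ⟨Ne.symm af, Ne.symm bf, Ne.symm cf, Ne.symm df⟩
  · refine Or.inr ⟨?_, ?_⟩
    · rw [hp]
      rintro i (h1 | h1)
      · exact Or.inl h1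
      · exact Or.inr (Or.inl h1)
    · exact (Set.ncard_pair ab).ge
  · refine Or.inr ⟨?_, ?_⟩
    · rw [hp]
      rintro i (h1 | h1)
      · exact Or.inr (Or.inr (Or.inl h1))
      · exact Or.inr (Or.inr (Or.inr h1))
    · exact (Set.ncard_pair cd).ge

theorem KK_sub {k : Fin 2} {j : Fin 6} {l : Fin 4} (hl : u ∈ XP T z y N π φ (k, j) l) :
    N '' (KK π k l : Set (Fin 6)) ⊆ T (pp z y φ u k j) := by
  rintro _ ⟨i, hi, rfl⟩
  exact P.mem_T hl (Finset.mem_coe.1 hi)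

omit P in
theorem not_disj {s t : Finset (Fin 6)} (h : ¬ Disjoint s t) :
    ¬ Disjoint (N '' (s : Set (Fin 6))) (N '' (t : Set (Fin 6))) := by
  rw [Finset.disjoint_left] at h
  rw [Set.disjoint_left]
  push Not at h ⊢
  obtain ⟨i, hi, hi'⟩ := h
  exact ⟨N i, ⟨i, hi, rfl⟩, ⟨i, hi', rfl⟩⟩

theorem disj {s t : Finset (Fin 6)} (h : Disjoint s t) :
    Disjoint (N '' (s : Set (Fin 6))) (N '' (t : Set (Fin 6))) := by
  rw [Set.disjoint_image_iff P.inj]
  exact Finset.disjoint_coe.2 h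

/-- parallel slots -/
theorem crs_ok {j : Fin 6} {g g' : Col} (hg : Leg π g) (hg' : Leg π g')
    (hz : pp z y φ u 0 j ≠ y) (hz2 : pp z y φ u 0 j + y ≠ 2 * z)
    (hg0 : u ∈ XP T z y N π φ (0, j) (g (0, j))) (hg0' : u ∈ XP T z y N π φ (0, j) (g' (0, j)))
    (hg1 : u ∈ XP T z y N π φ (1, j) (g (1, j))) (hg1' : u ∈ XP T z y N π φ (1, j) (g' (1, j))) :
    CrsOK π (tau T z y φ u (0, j)) (tau T z y φ u (1, j)) (g (0, j)) (g' (0, j)) (g (1, j))
      (g' (1, j)) := by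
  intro h1 h2
  by_contra hcon
  push Not at hcon
  have hpz : pp z y φ u 0 j ≠ z := by
    intro h
    have h3 : dist (pp z y φ u 0 j) z = 1 := dist_pt z _
    rw [h, dist_self] at h3
    exact zero_ne_one h3
  have e1 : pp z y φ u 1 j = y + (pp z y φ u 0 j - z) := by
    show pt y _ = y + (pt z _ - z)
    rw [pt_shift z y]; ring
  have ho : Off z y φ u 0 j := ⟨hpz, hz⟩
  have ho' : Off z y φ u 1 j := by
    refine ⟨fun h => hz2 ?_, fun h => ?_⟩
    · rw [e1] at h; linear_combination h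
    · have h3 : dist (pp z y φ u 1 j) y = 1 := dist_pt y _
      rw [h, dist_self] at h3
      exact zero_ne_one h3
  have h3 := P.le_of_tau ho hcon.1
  have h3' := P.le_of_tau ho' hcon.2
  rw [e1] at h3'
  have s1 := P.KK_sub hg1
  have s1' := P.KK_sub hg1'
  rw [e1] at s1 s1'
  exact noswap_side P.irr (dist_pt z _) P.zy hz hz2 (P.four 0).ge h3 h3' (P.KK_sub hg0)
    (P.KK_sub hg0') s1 s1' (P.isLt 0 _) (P.isLt 0 _) (P.disj (hg.prod j)) (P.disj (hg'.prod j))
    (not_disj h1) (not_disj h2)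

omit P in
theorem pp_add3 (k : Fin 2) (j : Fin 6) :
    pp z y φ u k (j + 3) = 2 * ctr z y k - pp z y φ u k j := by
  unfold pp
  rw [pt_add3, pt_three]

/-- opposite slots -/
theorem opp_ok {k : Fin 2} {j : Fin 6} {l m l' m' : Fin 4} (hl : u ∈ XP T z y N π φ (k, j) l)
    (hm : u ∈ XP T z y N π φ (k, j) m) (hl' : u ∈ XP T z y N π φ (k, j + 3) l')
    (hm' : u ∈ XP T z y N π φ (k, j + 3) m') : OppOK ty k l m l' m' := by
  intro hk h2 h3
  have k2 : pp z y φ u k j ∈ Ls T z y N π k 2 := by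
    rcases h2 with rfl | rfl
    · exact P.mem_Ls hl
    · exact P.mem_Ls hm
  have k3 : pp z y φ u k (j + 3) ∈ Ls T z y N π k 3 := by
    rcases h3 with rfl | rfl
    · exact P.mem_Ls hl'
    · exact P.mem_Ls hm'
  have s3 := Lt_col P.irr k3
  have hd : DPt T (ctr z y k) (cn N π k 0) (cn N π k 1) (cn N π k 2) (cn N π k 3) := by
    have hk2 : k = 0 ∨ k = 1 := by fin_cases k <;> decide
    rcases hk2 with rfl | rfl
    · exact P.dz
    · rcases hk with h | h
      · exact absurd h (by decide)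
      · exact P.ty2 h
  refine P.irr.anti_clo hd (dist_pp k (j + 3)) (s3 (by simp [S5.H767.col]))
    (s3 (by simp [S5.H767.col])) ?_
  rw [pp_add3, sub_sub_cancel]
  exact k2

/-! ### The split at the centres -/

/-- the colours of the letter of a seen palette -/
theorem KK_pal {k : Fin 2} {s : ℝ} (hs : s ∈ Lc T (ctr z y k)) :
    N '' (KK π k (lt2 N π k (T (pt (ctr z y k) s))) : Set (Fin 6)) ⊆ T (pt (ctr z y k) s) := by
  rw [← col_eq]
  exact Lt_col P.irr (P.lt_Ls hs)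

theorem KK_seenL {k : Fin 2} {s : ℝ} {Q X : Set (Fin 6)} (hQ : SeenL T (ctr z y k) s Q)
    (hX : ∀ᶠ w in 𝓝[<] s, T (pt (ctr z y k) w) ⊆ X) :
    N '' (KK π k (lt2 N π k Q) : Set (Fin 6)) ⊆ X := by
  obtain ⟨w, ⟨hw1, hw2⟩, hw3⟩ := (Frequently.and_eventually hQ hX).exists
  rw [← hw2]
  exact (P.KK_pal hw1).trans hw3

theorem KK_seenR {k : Fin 2} {s : ℝ} {Q X : Set (Fin 6)} (hQ : SeenR T (ctr z y k) s Q)
    (hX : ∀ᶠ w in 𝓝[>] s, T (pt (ctr z y k) w) ⊆ X) :
    N '' (KK π k (lt2 N π k Q) : Set (Fin 6)) ⊆ X := by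
  obtain ⟨w, ⟨hw1, hw2⟩, hw3⟩ := (Frequently.and_eventually hQ hX).exists
  rw [← hw2]
  exact (P.KK_pal hw1).trans hw3

theorem sub_two {s : Finset (Fin 6)} {i j : Fin 6} (h : N '' (s : Set (Fin 6)) ⊆ {N i, N j}) :
    s ⊆ {i, j} := by
  intro m hm
  rcases h ⟨m, Finset.mem_coe.2 hm, rfl⟩ with h1 | h1
  · rw [P.inj h1]; simp
  · rw [mem_singleton_iff] at h1
    rw [P.inj h1]; simp

theorem sub_four {s : Finset (Fin 6)} {i j k l : Fin 6}
    (h : N '' (s : Set (Fin 6)) ⊆ {N i, N j, N k, N l}) : s ⊆ {i, j, k, l} := by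
  intro m hm
  rcases h ⟨m, Finset.mem_coe.2 hm, rfl⟩ with h1 | h1 | h1 | h1
  · rw [P.inj h1]; simp
  · rw [P.inj h1]; simp
  · rw [P.inj h1]; simp
  · rw [mem_singleton_iff] at h1
    rw [P.inj h1]; simp

/-- the two colours splits -/
def Split2 (ν : Fin 6 → Fin 6) (L R : Finset (Fin 6)) : Prop :=
  (L ⊆ {ν 0, ν 2} ∧ R ⊆ {ν 1, ν 3}) ∨ (L ⊆ {ν 1, ν 3} ∧ R ⊆ {ν 0, ν 2}) ∨
    (L ⊆ {ν 0, ν 3} ∧ R ⊆ {ν 1, ν 2}) ∨ (L ⊆ {ν 1, ν 2} ∧ R ⊆ {ν 0, ν 3})

/-- **the split of the limit columns at a two-pair point of the circle** -/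
theorem split2 {k : Fin 2} {j : Fin 6} {ν : Fin 6 → Fin 6}
    (hd : DPt T (pp z y φ u k j) (N (ν 0)) (N (ν 1)) (N (ν 2)) (N (ν 3))) {h h' : Col}
    (hh : h ∈ LC (XP T z y N π φ) u) (hh' : h' ∈ RC (XP T z y N π φ) u) :
    Split2 ν (KK π k (h (k, j))) (KK π k (h' (k, j))) := by
  obtain ⟨X, Y, hXY, h1, h2⟩ := split_ang P.irr hd
  obtain ⟨Q, hQ, hS⟩ := LC_pal hh (k, j)
  obtain ⟨Q', hQ', hS'⟩ := RC_pal hh' (k, j)
  have k1 := P.KK_seenL hS h1
  have k2 := P.KK_seenR hS' h2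
  rw [hQ] at k1
  rw [hQ'] at k2
  rcases hXY with ⟨rfl, rfl⟩ | ⟨rfl, rfl⟩ | ⟨rfl, rfl⟩ | ⟨rfl, rfl⟩
  · exact Or.inl ⟨P.sub_two k1, P.sub_two k2⟩
  · exact Or.inr (Or.inl ⟨P.sub_two k1, P.sub_two k2⟩)
  · exact Or.inr (Or.inr (Or.inl ⟨P.sub_two k1, P.sub_two k2⟩))
  · exact Or.inr (Or.inr (Or.inr ⟨P.sub_two k1, P.sub_two k2⟩))

/-! ### The special time -/

omit P in
theorem pp_y (hy : pt z φ = y) : pp z y φ 0 0 0 = y := by
  show pt z (φ + 0 + ((0 : Fin 6).val : ℝ)) = y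
  rw [← hy]; congr 1; simp

omit P in
theorem pp_z (hy : pt z φ = y) : pp z y φ 0 1 3 = z := by
  show pt y (φ + 0 + ((3 : Fin 6).val : ℝ)) = z
  have h1 := pt_back hy
  have e : φ + 0 + ((3 : Fin 6).val : ℝ) = φ + 3 := by norm_num
  rw [e]; exact h1

omit P in
theorem off (hy : pt z φ = y) {k : Fin 2} {j : Fin 6} (h : ¬ spc k j) : Off z y φ 0 k j := by
  have hk : k = 0 ∨ k = 1 := by fin_cases k <;> decide
  have e0 : φ + 0 + (j.val : ℝ) = φ + (j.val : ℝ) := by ring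
  rcases hk with rfl | rfl
  · have hj : j ≠ 0 := fun hj => h (Or.inl ⟨rfl, hj⟩)
    refine ⟨fun h1 => ?_, ?_⟩
    · have h3 : dist (pp z y φ 0 0 j) z = 1 := dist_pt z _
      rw [h1, dist_self] at h3
      exact zero_ne_one h3
    · show pt z (φ + 0 + (j.val : ℝ)) ≠ y
      rw [e0]; exact pt_ne_y hy hj
  · have hj : j ≠ 3 := fun hj => h (Or.inr ⟨rfl, hj⟩)
    refine ⟨?_, fun h1 => ?_⟩
    · show pt y (φ + 0 + (j.val : ℝ)) ≠ z
      rw [e0]
      intro h1
      have h2 := pt_add_y_ne hy hj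
      apply h2
      rw [pt_shift z y] at h1
      linear_combination h1
    · have h3 : dist (pp z y φ 0 1 j) y = 1 := dist_pt y _
      rw [h1, dist_self] at h3
      exact zero_ne_one h3

omit P in
theorem pp_ap1 (hy : pt z φ = y) : pp z y φ 0 0 1 = pp z y φ 0 1 2 := by
  show pt z (φ + 0 + ((1 : Fin 6).val : ℝ)) = pt y (φ + 0 + ((2 : Fin 6).val : ℝ))
  have e1 : φ + 0 + ((1 : Fin 6).val : ℝ) = φ + 1 := by norm_num
  have e2 : φ + 0 + ((2 : Fin 6).val : ℝ) = φ + 2 := by norm_num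
  rw [e1, e2]; exact pt_apex hy

omit P in
theorem pp_ap5 (hy : pt z φ = y) : pp z y φ 0 0 5 = pp z y φ 0 1 4 := by
  show pt z (φ + 0 + ((5 : Fin 6).val : ℝ)) = pt y (φ + 0 + ((4 : Fin 6).val : ℝ))
  have e1 : φ + 0 + ((5 : Fin 6).val : ℝ) = φ + 5 := by norm_num
  have e2 : φ + 0 + ((4 : Fin 6).val : ℝ) = φ + 4 := by norm_num
  rw [e1, e2]; exact pt_apex' hy

theorem tau_of_le {k : Fin 2} {j : Fin 6} (h3 : (T (pp z y φ u k j)).ncard ≤ 3) :
    tau T z y φ u (k, j) = false := by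
  rw [tau_false]
  intro h
  rw [h, P.four k] at h3
  omega

theorem card_le {s : Finset (Fin 6)} {p : ℂ} (h3 : (T p).ncard ≤ 3)
    (hs : N '' (s : Set (Fin 6)) ⊆ T p) : s.card ≤ 3 := by
  have h1 := Set.ncard_le_ncard hs (Set.toFinite _)
  rw [Set.ncard_image_of_injective _ P.inj, Set.ncard_coe_finset] at h1
  omega

theorem ap_card {k k' : Fin 2} {j j' : Fin 6} (he : pp z y φ u k j = pp z y φ u k' j')
    (h3 : (T (pp z y φ u k j)).ncard ≤ 3) {l m l' m' : Fin 4}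
    (hl : u ∈ XP T z y N π φ (k, j) l) (hm : u ∈ XP T z y N π φ (k, j) m)
    (hl' : u ∈ XP T z y N π φ (k', j') l') (hm' : u ∈ XP T z y N π φ (k', j') m') :
    (KK π k l ∪ KK π k m ∪ KK π k' l' ∪ KK π k' m').card ≤ 3 := by
  refine P.card_le h3 ?_
  rw [Finset.coe_union, Finset.coe_union, Finset.coe_union, image_union, image_union, image_union]
  have h1 := P.KK_sub hl'
  have h2 := P.KK_sub hm'
  rw [← he] at h1 h2
  exact union_subset (union_subset (union_subset (P.KK_sub hl) (P.KK_sub hm)) h1) h2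

/-- **The special time.** -/
theorem sp_of (hy : pt z φ = y) {h h' : Col} (hh : h ∈ LC (XP T z y N π φ) 0) (hh' : h' ∈ RC (XP T z y N π φ) 0) :
    Sp π ty E (tau T z y φ 0) h h' := by
  obtain ⟨hL, hA⟩ := P.lim (Or.inl hh)
  obtain ⟨hL', hA'⟩ := P.lim (Or.inr hh')
  have a1 : (T (pp z y φ 0 0 1)).ncard ≤ 3 := P.ap _ (dist_pt z _) (by
    rw [pp_ap1 hy]; exact dist_pt y _)
  have a5 : (T (pp z y φ 0 0 5)).ncard ≤ 3 := P.ap _ (dist_pt z _) (by
    rw [pp_ap5 hy]; exact dist_pt y _)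
  have b1 : (T (pp z y φ 0 1 2)).ncard ≤ 3 := by rw [← pp_ap1 hy]; exact a1
  have b5 : (T (pp z y φ 0 1 4)).ncard ≤ 3 := by rw [← pp_ap5 hy]; exact a5
  have hpalY : T y = {N (π 0), N (π 1), N (π 2), N (π 3)} := P.cy.pal
  have hpalZ : T z = {N 0, N 1, N 2, N 3} := P.dz.pal
  refine
    { leg := hL
      leg' := hL'
      tyOK := fun k j => ⟨P.ty_ok (hA k j), P.ty_ok (hA' k j)⟩
      loc := fun k j hs => P.loc_ok (off hy hs) (hA k j) (hA' k j)
      adj := fun k j hs hs' => P.adj_ok (off hy hs) (off hy hs') (hA k j) (hA' k j) (hA k (j + 1))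
        (hA' k (j + 1))
      crs := fun j h0 h3 => ?_
      opp := fun k j => P.opp_ok (hA k j) (hA' k j) (hA k (j + 3)) (hA' k (j + 3))
      atY := ?_
      atZ := ?_
      apx := ⟨P.tau_of_le a1, P.tau_of_le b1, P.tau_of_le a5, P.tau_of_le b5⟩
      ap1 := P.ap_card (pp_ap1 hy) a1 (hA 0 1) (hA' 0 1) (hA 1 2) (hA' 1 2)
      ap5 := P.ap_card (pp_ap5 hy) a5 (hA 0 5) (hA' 0 5) (hA 1 4) (hA' 1 4) }
  · have e0 : φ + 0 + (j.val : ℝ) = φ + (j.val : ℝ) := by ring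
    refine P.crs_ok hL hL' ?_ ?_ (hA 0 j) (hA' 0 j) (hA 1 j) (hA' 1 j)
    · show pt z (φ + 0 + (j.val : ℝ)) ≠ y
      rw [e0]; exact pt_ne_y hy h0
    · show pt z (φ + 0 + (j.val : ℝ)) + y ≠ 2 * z
      rw [e0]; exact pt_add_y_ne hy h3
  · refine ⟨⟨?_, ?_⟩, fun h2 => ?_⟩
    · have := P.KK_sub (hA 0 0)
      rw [pp_y hy, hpalY] at this
      exact P.sub_four this
    · have := P.KK_sub (hA' 0 0)
      rw [pp_y hy, hpalY] at this
      exact P.sub_four this
    · exact P.split2 (ν := π) (by rw [pp_y hy]; exact P.ty2 h2) hh hh'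
  · refine ⟨⟨?_, ?_⟩, fun _ => ?_⟩
    · have := P.KK_sub (hA 1 3)
      rw [pp_z hy, hpalZ] at this
      exact P.sub_four this
    · have := P.KK_sub (hA' 1 3)
      rw [pp_z hy, hpalZ] at this
      exact P.sub_four this
    · exact P.split2 (ν := id) (by rw [pp_z hy]; exact P.dz) hh hh'

omit P in
/-- at the other times no slot is a centre -/
theorem off_time (hy : pt z φ = y) (hu : u ∈ Ioo (0 : ℝ) 1) (k : Fin 2) (j : Fin 6) :
    Off z y φ u k j := by
  have key : ∀ (c : ℂ) (s : ℝ), (∃ m : ℤ, s = φ + (m : ℝ)) → pt c (φ + u + (j.val : ℝ)) ≠ pt c s := by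
    rintro c s ⟨m, rfl⟩ h1
    obtain ⟨n, hn⟩ := pt_eq_iff h1
    have h2 : u = ((m - (j.val : ℤ) + 6 * n : ℤ) : ℝ) := by push_cast; linarith
    have h3 : (0 : ℝ) < ((m - (j.val : ℤ) + 6 * n : ℤ) : ℝ) := by rw [← h2]; exact hu.1
    have h4 : ((m - (j.val : ℤ) + 6 * n : ℤ) : ℝ) < 1 := by rw [← h2]; exact hu.2
    have h5 : 0 < m - (j.val : ℤ) + 6 * n := by exact_mod_cast h3
    have h6 : m - (j.val : ℤ) + 6 * n < 1 := by exact_mod_cast h4
    omega
  have hk : k = 0 ∨ k = 1 := by fin_cases k <;> decide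
  rcases hk with rfl | rfl
  · refine ⟨fun h1 => ?_, fun h1 => ?_⟩
    · have h3 : dist (pp z y φ u 0 j) z = 1 := dist_pt z _
      rw [h1, dist_self] at h3
      exact zero_ne_one h3
    · exact key z φ ⟨0, by simp⟩ (h1.trans hy.symm)
  · refine ⟨fun h1 => ?_, fun h1 => ?_⟩
    · exact key y (φ + 3) ⟨3, by norm_num⟩ (h1.trans (pt_back hy).symm)
    · have h3 : dist (pp z y φ u 1 j) y = 1 := dist_pt y _
      rw [h1, dist_self] at h3
      exact zero_ne_one h3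

/-- **The other times.** -/
theorem ev_of (hy : pt z φ = y) (hu : u ∈ Ioo (0 : ℝ) 1) {h h' : Col}
    (hh : h ∈ LC (XP T z y N π φ) u ∪ RC (XP T z y N π φ) u)
    (hh' : h' ∈ LC (XP T z y N π φ) u ∪ RC (XP T z y N π φ) u) :
    Ev π ty E (tau T z y φ u) h h' := by
  obtain ⟨hL, hA⟩ := P.lim hh
  obtain ⟨hL', hA'⟩ := P.lim hh'
  have ho := off_time hy hu
  refine
    { leg := hL
      leg' := hL'
      tyOK := fun k j => ⟨P.ty_ok (hA k j), P.ty_ok (hA' k j)⟩
      loc := fun k j => P.loc_ok (ho k j) (hA k j) (hA' k j)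
      adj := fun k j => P.adj_ok (ho k j) (ho k (j + 1)) (hA k j) (hA' k j) (hA k (j + 1))
        (hA' k (j + 1))
      crs := fun j => P.crs_ok hL hL' (ho 0 j).2 (fun h => (ho 1 j).1 ?_) (hA 0 j) (hA' 0 j)
        (hA 1 j) (hA' 1 j)
      opp := fun k j => P.opp_ok (hA k j) (hA' k j) (hA k (j + 3)) (hA' k (j + 3)) }
  have e1 : pp z y φ u 1 j = y + (pp z y φ u 0 j - z) := by
    show pt y _ = y + (pt z _ - z)
    rw [pt_shift z y]; ring
  rw [e1]; linear_combination h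

/-- **The special time** -/
theorem sp (hy : pt z φ = y) :
    ∀ h ∈ LC (XP T z y N π φ) 0, ∀ h' ∈ RC (XP T z y N π φ) 0,
      Sp π ty E (tau T z y φ 0) h h' := fun _ hh _ hh' => P.sp_of hy hh hh'

/-- **Contradiction from a class function** -/
theorem false_of {σ : Type*} (lab : Col → σ)
    (hEv : ∀ τ h h', Ev π ty E τ h h' → lab h = lab h')
    (hSp : ∀ τ h h', Sp π ty E τ h h' → lab h' ≠ lab (rot h)) : False := by
  obtain ⟨θ, hθ⟩ := exists_cis (u := y - z) (by rw [← dist_eq_norm]; exact P.zy)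
  have hpi : Real.pi / 3 ≠ 0 := by positivity
  have hφ : pt z (θ / (Real.pi / 3)) = y := by
    unfold pt
    rw [div_mul_cancel₀ _ hpi, ← hθ]; ring
  exact P.false_of' (φ := θ / (Real.pi / 3)) (fun u hu h hh h' hh' => P.ev_of hφ hu hh hh')
    (P.sp hφ) lab hEv hSp

end Pr

end Vale.Agent.P032.H747
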