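import Vale.Agent.P032.H780.Tip
import Vale.Agent.P032.H802.Lt60Q
import Vale.Agent.P032.H802.ChainI

/-!
# P032, X, state A: the tip over a side of an all-STAY chain (vertex type `QI`)

`ChI.tip780` : `v = V (j + 1) + V (j - 1) - V j`, all links STAY (with the letter `f`):
`T v = {name j 1, name j 4, name j 5}`, `v` is a plain end of both `V (j + 1)` and `V (j - 1)` and it is
at distance greater than one from the points of their connecting arcs.
-/

open Set Filter Topology Metric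

noncomputable section

namespace Vale.Agent.P032.Six

open Vale.Agent.P032.S5 Vale.Agent.P032.S5.H767 Vale.Agent.P032.H961 Vale.Agent.P032.H678

variable {U : Fin 6 → Set ℂ} {T : ℂ → Set (Fin 6)} {Inv : ℂ → ℂ → Prop} {V : ℤ → ℂ}
  {l : ℤ → Fin 6} {name : ℤ → Fin 6 → Fin 6}

/-- the names at the vertex after a STAY link with the letter `f` -/
theorem ChI.nm780 (C : ChI nxR802 T Inv V l name) (hl : ∀ j, l j = 2) (j : ℤ) :
    name (j + 1) 0 = name j 0 ∧ name (j + 1) 1 = name j 2 ∧ name (j + 1) 2 = name j 5 ∧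
      name (j + 1) 3 = name j 1 ∧ name (j + 1) 4 = name j 3 ∧ name (j + 1) 5 = name j 4 := by
  refine ⟨?_, ?_, ?_, ?_, ?_, ?_⟩ <;> rw [C.nm, hl] <;> rfl

/-- the colours of the two neighbours of a vertex -/
theorem ChI.nb780 (C : ChI nxR802 T Inv V l name) (hl : ∀ j, l j = 2) (j : ℤ) :
    DPt T (V (j - 1)) (name j 0) (name j 3) (name j 1) (name j 4) ∧
      DPt T (V (j + 1)) (name j 0) (name j 2) (name j 5) (name j 1) ∧
      name (j - 1) 0 = name j 0 ∧ name (j - 1) 1 = name j 3 ∧ name (j - 1) 2 = name j 1 ∧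
      name (j - 1) 3 = name j 4 ∧ name (j - 1) 4 = name j 5 ∧ name (j - 1) 5 = name j 2 := by
  obtain ⟨a0, a1, a2, a3, a4, a5⟩ := C.nm780 hl (j - 1)
  obtain ⟨b0, b1, b2, b3, b4, b5⟩ := C.nm780 hl j
  have e : j - 1 + 1 = j := by ring
  rw [e] at a0 a1 a2 a3 a4 a5
  have d1 := (C.qf (j - 1)).dpt
  have d2 := (C.qf (j + 1)).dpt
  rw [← a0, ← a3, ← a1, ← a4] at d1
  rw [b0, b1, b2, b3] at d2
  exact ⟨d1, d2, a0.symm, a3.symm, a1.symm, a4.symm, a5.symm, a2.symm⟩

/-- the arcs of an all-STAY K-chain are shorter than sixty degrees -/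
theorem ChI.lt60_780 (h : Irr U T) (hw : QIW T Inv) (C : ChI nxR802 T Inv V l name)
    (hl : ∀ j, l j = 2) (j : ℤ)
    (hI : ¬ (Inv (V (j + 1)) (V (j - 1)) ∧ Inv (V (j - 1)) (V (j + 1)))) :
    dist (V (j + 1)) (V (j - 1)) < 1 := by
  refine lt_of_le_of_ne (C.qf j).toQI0.dist12 fun h1 => ?_
  rcases lt60_802 h hw (C.qf j) h1 with h2 | h2
  · obtain ⟨-, d2, -⟩ := C.nb780 hl j
    have h3 : name j 3 ∈ T (V (j + 1)) := by
      rw [h2.1, (C.qf j).dpt.pal]; simp
    have hnd := (C.qf j).nd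
    simp only [List.nodup_cons, List.mem_cons, List.not_mem_nil, or_false, not_or,
      List.nodup_nil, and_true, not_false_eq_true] at hnd
    obtain ⟨⟨h01, h02, h03, h04, h05⟩, ⟨h12, h13, h14, h15⟩, ⟨h23, h24, h25⟩, ⟨h34, h35⟩, h45⟩ :=
      hnd
    rw [d2.pal] at h3
    simp only [mem_insert_iff, mem_singleton_iff] at h3
    rcases h3 with h3 | h3 | h3 | h3
    · exact h03 h3.symm
    · exact h23 h3.symm
    · exact h35 h3
    · exact h13 h3.symm
  · exact hI h2

/-- **The tip over the side of `V j`** -/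
theorem ChI.tip780 (h : Irr U T) (hw : QIW T Inv) (C : ChI nxR802 T Inv V l name)
    (hl : ∀ j, l j = 2) (j : ℤ)
    (hI : ¬ (Inv (V (j + 1)) (V (j - 1)) ∧ Inv (V (j - 1)) (V (j + 1))))
    (hv : ¬ Inv (V (j - 1)) (V (j + 1) + V (j - 1) - V j)) :
    dist (V (j + 1) + V (j - 1) - V j) (V (j + 1)) = 1 ∧
    dist (V (j + 1) + V (j - 1) - V j) (V (j - 1)) = 1 ∧
    T (V (j + 1) + V (j - 1) - V j) = {name j 1, name j 4, name j 5} ∧
    V (j + 1) + V (j - 1) - V j ∈
      closure (Ex T (V (j + 1)) {name (j + 1) 2, name (j + 1) 3}) ∧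
    V (j + 1) + V (j - 1) - V j ∈
      closure (Ex T (V (j - 1)) {name (j - 1) 2, name (j - 1) 3}) ∧
    (∀ y ∈ closure (Ex T (V (j + 1)) {name (j + 1) 0, name (j + 1) 1}),
      1 < dist y (V (j + 1) + V (j - 1) - V j)) ∧
    ∀ y ∈ closure (Ex T (V (j - 1)) {name (j - 1) 0, name (j - 1) 1}),
      1 < dist y (V (j + 1) + V (j - 1) - V j) := by
  obtain ⟨d0, d2, p0, p1, p2, p3, -, -⟩ := C.nb780 hl j
  obtain ⟨q0, q1, q2, q3, -, -⟩ := C.nm780 hl j
  set V0 := V (j - 1) with hV0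
  set V2 := V (j + 1) with hV2
  have H0 := C.qf (j - 1)
  have H2 := C.qf (j + 1)
  have e1 : j - 1 + 1 = j := by ring
  have e2 : j + 1 - 1 = j := by ring
  rw [e1] at H0
  rw [e2] at H2
  rw [← hV0] at H0
  rw [← hV2] at H2
  have H1 := C.qf j
  have h02 : dist V0 V2 < 1 := by
    rw [dist_comm]; exact C.lt60_780 h hw hl j hI
  have h01 : dist (V j) V0 = 1 := H0.toQI0.dist1
  have h12 : dist (V j) V2 = 1 := H2.toQI0.dist2
  have ex : V2 + V0 - V j = V0 + V2 - V j := by ring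
  rw [p0, p1, p2, p3, q0, q1, q2, q3]
  have H0' : ∀ y ∈ closure (Ex T V0 {name j 0, name j 3}), 1 < dist y (V0 + V2 - V j) := by
    intro y hy
    have hy' := hy
    rw [← p0, ← p1] at hy
    exact tip_far780 h01 h12 (dist_of_closure hy) h02.le
      (H0.toQI0.diam h hy (H0.toQI0.mem1 h)) (Or.inl h02)
  have H2' : ∀ y ∈ closure (Ex T V2 {name j 0, name j 2}), 1 < dist y (V0 + V2 - V j) := by
    intro y hy
    rw [← q0, ← q1] at hy
    have e : V0 + V2 - V j = V2 + V0 - V j := by ring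
    rw [e]
    exact tip_far780 h12 h01 (dist_of_closure hy) (by rw [dist_comm]; exact h02.le)
      (H2.toQI0.diam h hy (H2.toQI0.mem2 h)) (Or.inl (by rw [dist_comm]; exact h02))
  have hx0 : dist (V0 + V2 - V j) V0 = 1 := dist_tip780 h12
  have hx2 : dist (V0 + V2 - V j) V2 = 1 := by
    rw [← ex]
    exact dist_tip780 h01
  rw [ex] at hv ⊢
  have hc0 : V0 + V2 - V j ∉ closure (Ex T V0 {name j 0, name j 3}) := fun hc => by
    have := H0' _ hc
    rw [dist_self] at this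
    linarith
  have hx3 : (T (V0 + V2 - V j)).ncard ≤ 3 := by
    rcases H0.toQI0.le3 h hx0 with h1 | h1 | h1
    · rw [p0, p1] at h1
      exact absurd h1 hc0
    · exact absurd h1 hv
    · exact h1
  have nd : [name j 0, name j 3, name j 1, name j 4, name j 5, name j 2].Nodup := by
    have := H1.nd
    simp only [List.nodup_cons, List.mem_cons, List.not_mem_nil, or_false, not_or,
      List.nodup_nil, and_true, not_false_eq_true] at this ⊢
    obtain ⟨⟨h01, h02, h03, h04, h05⟩, ⟨h12, h13, h14, h15⟩, ⟨h23, h24, h25⟩, ⟨h34, h35⟩, h45⟩ :=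
      this
    exact ⟨⟨h03, h01, h04, h05, h02⟩, ⟨Ne.symm h13, h34, h35, Ne.symm h23⟩, ⟨h14, h15, h12⟩,
      ⟨h45, Ne.symm h24⟩, Ne.symm h25⟩
  obtain ⟨t1, t2, t3⟩ := tip_pal780 h nd d0 d2 h01 h12
    (by intro hc; have := H1.toQI0.ne12; exact this hc.symm) (by linarith) hx3 hc0
  exact ⟨hx2, hx0, t1, t3, t2, H2', H0'⟩

/-- the same without invisible points -/
theorem ChI.tipN780 (h : Irr U T) (hw : QIW T fun _ _ => False)
    (C : ChI nxR802 T (fun _ _ => False) V l name) (hl : ∀ j, l j = 2) (j : ℤ) :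
    dist (V (j + 1) + V (j - 1) - V j) (V (j + 1)) = 1 ∧
    dist (V (j + 1) + V (j - 1) - V j) (V (j - 1)) = 1 ∧
    T (V (j + 1) + V (j - 1) - V j) = {name j 1, name j 4, name j 5} ∧
    V (j + 1) + V (j - 1) - V j ∈
      closure (Ex T (V (j + 1)) {name (j + 1) 2, name (j + 1) 3}) ∧
    V (j + 1) + V (j - 1) - V j ∈
      closure (Ex T (V (j - 1)) {name (j - 1) 2, name (j - 1) 3}) ∧
    (∀ y ∈ closure (Ex T (V (j + 1)) {name (j + 1) 0, name (j + 1) 1}),
      1 < dist y (V (j + 1) + V (j - 1) - V j)) ∧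
    ∀ y ∈ closure (Ex T (V (j - 1)) {name (j - 1) 0, name (j - 1) 1}),
      1 < dist y (V (j + 1) + V (j - 1) - V j) :=
  C.tip780 h hw hl j (fun h => h.1) (fun h => h)

end Vale.Agent.P032.Six
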