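import Vale.Agent.P032.H780.TipA
import Vale.Agent.P032.H974.TipGlue
import Vale.Agent.P032.H383.RingW
import Vale.Agent.P032.H180.Viol
import Vale.Agent.P032.H862.NFrzX

/-!
# P032, X, state A: the odd ring at the tip, one exceptional pair

`FullRec780` : the record of the ring at the full times.
`ring_of_rec780` : the odd ring from the record, at most one swap, and two plain ends at distance
less than one.  `ringV_of780` : `RingV` from the record at the tip.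
-/

open Set Filter Topology Metric

noncomputable section

namespace Vale.Agent.P032.Six

open Vale.Agent.P032.S5 Vale.Agent.P032.Carr Vale.Agent.P032.S5.H767 Vale.Agent.P032.H961
  Vale.Agent.P032.H538
open Vale.Agent.P032.H180 (Qt Qt_of_ne Qt_of_eq)
open Vale.Agent.P032.S5.H180 (Qx rx Qx_univ)

variable {U : Fin 6 → Set ℂ} {T : ℂ → Set (Fin 6)} {f : ℂ → Set (Fin 6)} {Z : Set ℂ} {c : ℂ}
  {R δ₀ : ℝ} {x : ℂ}

/-- the ring record at the full times -/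
structure FullRec780 (T f : ℂ → Set (Fin 6)) (Z : Set ℂ) (δ₀ : ℝ) (x : ℂ) : Prop where
  rc : H57.RC T Z f δ₀ x (T x)
  hexw : ∀ col : Fin 3 → Fin 6, (∀ i, i ∉ T x ↔ ∃ l, i = col l) → Function.Injective col →
    HexW (Qx T x col) (rx T f (T x) x col)
  inc : ∀ col : Fin 3 → Fin 6, (∀ i, i ∉ T x ↔ ∃ l, i = col l) → Function.Injective col →
    ∀ t s : ℝ, dist (H180.pt x t) (H180.pt x s) = 1 →
    (Qx T x col t = univ ∨ Qx T x col s = univ) →
    Qt (Qx T x col) (rx T f (T x) x col) t ⊆ Qt (Qx T x col) (rx T f (T x) x col) s →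
    SwV180 T f x (H180.pt x t) (H180.pt x s) ∨ SwV180 T f x (H180.pt x s) (H180.pt x t)
  nbad : ∀ col : Fin 3 → Fin 6, (∀ i, i ∉ T x ↔ ∃ l, i = col l) → Function.Injective col →
    ∀ t, Qx T x col t = univ → Qx T x col (t + 1) = univ →
    ∀ᶠ s in 𝓝 t, ¬ (Qx T x col s = {rx T f (T x) x col (t + 1)} ∧
      Qx T x col (s + 1) = {rx T f (T x) x col t})

/-- the time of the only swap -/
theorem exists_exc780 {V₀ y₀ : ℂ}
    (uniq : ∀ V y, SwV180 T f x V y → dist V x = 1 → dist y x = 1 → V = V₀ ∧ y = y₀)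
    (hd : dist V₀ x = 1) (hd' : dist y₀ x = 1) (hdd : dist V₀ y₀ = 1) :
    ∃ t₀ : ℝ, ∀ t, (∀ n : ℤ, t ≠ t₀ + 6 * n) →
      ¬ SwV180 T f x (H180.pt x t) (H180.pt x (t + 1)) ∧
      ¬ SwV180 T f x (H180.pt x (t + 1)) (H180.pt x t) := by
  obtain ⟨t₀, ht₀⟩ := exists_pair780 hd hd' hdd
  refine ⟨t₀, fun t ht => ⟨fun hS => ?_, fun hS => ?_⟩⟩
  · obtain ⟨h1, h2⟩ := uniq _ _ hS (H180.dist_pt x t) (H180.dist_pt x (t + 1))
    rw [pt_h180_780] at h1 h2
    obtain ⟨n, hn⟩ := pair_time780 (Or.inl ⟨h1, h2⟩) ht₀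
    exact ht n hn
  · obtain ⟨h1, h2⟩ := uniq _ _ hS (H180.dist_pt x (t + 1)) (H180.dist_pt x t)
    rw [pt_h180_780] at h1 h2
    obtain ⟨n, hn⟩ := pair_time780 (Or.inr ⟨h2, h1⟩) ht₀
    exact ht n hn

/-- **The odd ring**, at most one swap -/
theorem DSt.ring_of_rec780 (D : DSt U T Z f c R δ₀) (hw : QIW T NoI) (G : GaugeI758 T NoI f)
    (SA : ∀ V l name, ChI nxR802 T NoI V l name → ∀ j, l j = 2) (h3 : (T x).ncard = 3)
    (hap : ∀ z, dist z x = 1 → 4 ≤ (T z).ncard → ¬ T z \ f z ⊆ T x)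
    (F : FullRec780 T f Z δ₀ x)
    (uniq : ∀ V y V' y', SwV180 T f x V y → SwV180 T f x V' y' → dist V x = 1 → dist y x = 1 →
      dist V' x = 1 → dist y' x = 1 → V = V' ∧ y = y')
    {W1 W2 : ℂ} {a1 b1 m1 n1 g1 a2 b2 m2 n2 g2 : Fin 6}
    (D1 : DPt T W1 a1 b1 m1 n1) (D2 : DPt T W2 a2 b2 m2 n2) (d1 : dist x W1 = 1)
    (d2 : dist x W2 = 1) (T1 : T x = {m1, n1, g1}) (T2 : T x = {m2, n2, g2}) (G1 : g1 ∉ T W1)
    (G2 : g2 ∉ T W2)
    (L1 : ∀ y, dist y W1 = 1 → dist y x = 1 → (T y).ncard ≤ 3 ∨ (a1 ∈ T y ∧ b1 ∈ T y))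
    (L2 : ∀ y, dist y W2 = 1 → dist y x = 1 → (T y).ncard ≤ 3 ∨ (a2 ∈ T y ∧ b2 ∈ T y))
    (hne : W1 ≠ W2) (hlt : dist W1 W2 < 1) : RingOdd T Z f x := by
  -- the exceptional time
  obtain ⟨t₀, ht₀⟩ : ∃ t₀ : ℝ, ∀ t, (∀ n : ℤ, t ≠ t₀ + 6 * n) →
      ¬ SwV180 T f x (H180.pt x t) (H180.pt x (t + 1)) ∧
      ¬ SwV180 T f x (H180.pt x (t + 1)) (H180.pt x t) := by
    by_cases hex : ∃ V₀ y₀, SwV180 T f x V₀ y₀ ∧ dist V₀ x = 1 ∧ dist y₀ x = 1 ∧ dist V₀ y₀ = 1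
    · obtain ⟨V₀, y₀, hS, h1, h2, h3⟩ := hex
      exact exists_exc780 (fun V y hS' k1 k2 => uniq V y V₀ y₀ hS' hS k1 k2 h1 h2) h1 h2 h3
    · refine ⟨0, fun t _ => ⟨fun hS => hex ⟨_, _, hS, H180.dist_pt x t, H180.dist_pt x (t + 1),
        S5.H180.dist_pt_succ x t⟩, fun hS => hex ⟨_, _, hS, H180.dist_pt x (t + 1),
        H180.dist_pt x t, ?_⟩⟩⟩
      rw [dist_comm]
      exact S5.H180.dist_pt_succ x t
  refine ringOdd_ofW F.rc fun col hcol hinj => ?_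
  have W := F.hexw col hcol hinj
  have inc : ∀ t s : ℝ, dist (H180.pt x t) (H180.pt x s) = 1 →
      Qt (Qx T x col) (rx T f (T x) x col) t ⊆ Qt (Qx T x col) (rx T f (T x) x col) s →
      SwV180 T f x (H180.pt x t) (H180.pt x s) ∨ SwV180 T f x (H180.pt x s) (H180.pt x t) := by
    intro t s hts hsub
    by_cases h1 : Qx T x col t = univ
    · exact F.inc col hcol hinj t s hts (Or.inl h1) hsub
    by_cases h2 : Qx T x col s = univ
    · exact F.inc col hcol hinj t s hts (Or.inr h2) hsub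
    rw [Qt_of_ne h1, Qt_of_ne h2] at hsub
    refine viol180 D hw G SA h3 hap (H180.dist_pt x t) (H180.dist_pt x s) hts
      (fun h => h1 ((Qx_univ hcol).2 h)) (fun h => h2 ((Qx_univ hcol).2 h)) ?_
    rintro i ⟨hi, hix⟩
    obtain ⟨l, rfl⟩ := (hcol i).1 hix
    exact hsub hi
  have iso : ∀ {V a b m n}, DPt T V a b m n → ∀ᶠ w in 𝓝 V, 4 ≤ (T w).ncard → w = V :=
    fun hD => D.df.isolated4 hD
  refine ⟨t₀, W, fun t ht hsub => ?_, fun t ht hsub => ?_, fun t _ => F.nbad col hcol hinj t,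
    ?_⟩
  · obtain ⟨k1, k2⟩ := ht₀ t ht
    rcases inc _ _ (S5.H180.dist_pt_succ x t) hsub with h1 | h1
    · exact k1 h1
    · exact k2 h1
  · obtain ⟨k1, k2⟩ := ht₀ t ht
    rcases inc _ _ (by rw [dist_comm]; exact S5.H180.dist_pt_succ x t) hsub with h1 | h1
    · exact k2 h1
    · exact k1 h1
  · -- not frozen
    obtain ⟨t1, -, e1⟩ := H180.exists_pt (v := x) (y := W1) (by rw [dist_comm]; exact d1)
    obtain ⟨t2, -, e2⟩ := H180.exists_pt (v := x) (y := W2) (by rw [dist_comm]; exact d2)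
    have key : ∀ s : Fin 3, (s = 1 ∨ s = 2) → (∀ t ∈ Icc (0 : ℝ) 6, (∀ n : ℤ, t ≠ t₀ + n) →
        ∀ l, l ∈ Qt (Qx T x col) (rx T f (T x) x col) t ↔
          l + s ∈ Qt (Qx T x col) (rx T f (T x) x col) (t + 1)) → False := by
      intro s hs hfr
      have hne' : H767.pt x t1 ≠ H767.pt x t2 := by
        rw [← pt_h180_780, ← pt_h180_780, ← e1, ← e2]
        exact hne
      have hlt' : dist (H767.pt x t1) (H767.pt x t2) < 1 := by
        rw [← pt_h180_780, ← pt_h180_780, ← e1, ← e2]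
        exact hlt
      rcases col_off780 (t₀ := t₀) hne' hlt' with h1 | h1
      · exact D.df.irr.not_FrzX862 D1 d1 h3 T1 G1 (iso D1) L1 hcol hinj hs W.rper e1 h1 hfr
      · exact D.df.irr.not_FrzX862 D2 d2 h3 T2 G2 (iso D2) L2 hcol hinj hs W.rper e2 h1 hfr
    rintro (hfr | hfr)
    · exact key 1 (Or.inl rfl) hfr
    · exact key 2 (Or.inr rfl) hfr

/-- the record at every three coloured point without pinned pairs -/
def FullW780 (U : Fin 6 → Set ℂ) (T : ℂ → Set (Fin 6)) (f : ℂ → Set (Fin 6)) : Prop :=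
  ∀ {Z : Set ℂ} {c : ℂ} {R δ₀ : ℝ}, DSt U T Z f c R δ₀ → ∀ x, dist x c ≤ R - 1 →
    (T x).ncard = 3 → (∀ z, dist z x = 1 → 4 ≤ (T z).ncard → ¬ T z \ f z ⊆ T x) →
    FullRec780 T f Z δ₀ x

/-- **The odd ring at the tip** -/
theorem ringV_of780 (h : DF U T) (hw : QIW T NoI) (G : GaugeI758 T NoI f)
    (SA : ∀ V l name, ChI nxR802 T NoI V l name → ∀ j, l j = 2) (HF : FullW780 U T f) :
    RingV U T f := by
  intro Z c R δ₀ D V l name C hl hc
  obtain ⟨h1, h2, hT, k1, k2, t2, t1⟩ := C.tipN780 h.irr hw hl 0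
  obtain ⟨d0, d2, p0, p1, p2, p3, -, -⟩ := C.nb780 hl 0
  obtain ⟨q0, q1, q2, q3, -, -⟩ := C.nm780 hl 0
  rw [q2, q3, Set.pair_comm] at k1
  rw [p2, p3] at k2
  rw [q0, q1] at t2
  rw [p0, p1] at t1
  have H := (C.qf 0).toQI0
  have hnd := H.nd
  simp only [List.nodup_cons, List.mem_cons, List.not_mem_nil, or_false, not_or,
    List.nodup_nil, and_true, not_false_eq_true] at hnd
  have h45 : name 0 4 ≠ name 0 5 := by tauto
  have h3 : (T (V (0 + 1) + V (0 - 1) - V 0)).ncard = 3 :=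
    Set.ncard_eq_three.2 ⟨_, _, _, by tauto, by tauto, h45, hT⟩
  have hne2 : V (0 - 1) + V (0 + 1) ≠ 2 * (V (0 + 1) + V (0 - 1) - V 0) := by
    intro he
    have h4 : V (0 + 1) - V (0 - 1) = 2 * (V (0 + 1) - V 0) := by linear_combination he
    have h5 := H.dist12
    rw [dist_eq_norm, h4, norm_mul, ← dist_eq_norm, H.dist1] at h5
    norm_num at h5
  have hvc : dist (V (0 + 1) + V (0 - 1) - V 0) c ≤ R - 1 := by
    have e1 := dist_triangle (V (0 + 1) + V (0 - 1) - V 0) (V (0 + 1)) c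
    have e2 := dist_triangle (V (0 + 1)) (V 0) c
    have e3 := H.dist1
    linarith
  have hA := offA_three974 h.irr hw G h3
  have hap := D.apex553 hA (W1 := V (0 - 1)) (W2 := V (0 + 1)) d0.swap d2.swap.swap12 k2 k1
    H.ne12.symm hne2 h45 hT
  have hlt : dist (V (0 + 1)) (V (0 - 1)) < 1 :=
    C.lt60_780 h.irr hw hl 0 fun hI => hI.1
  have le3 : ∀ j a b, name j 0 = a → name j 1 = b → ∀ y, dist y (V j) = 1 →
      dist y (V (0 + 1) + V (0 - 1) - V 0) = 1 → (T y).ncard ≤ 3 ∨ (a ∈ T y ∧ b ∈ T y) := by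
    rintro j _ _ rfl rfl y hy -
    rcases (C.qf j).toQI0.le3 h.irr hy with h5 | h5 | h5
    · exact Or.inr ⟨sub_of_closure h.irr h5 (Or.inl rfl), sub_of_closure h.irr h5 (Or.inr rfl)⟩
    · exact h5.elim
    · exact Or.inl h5
  refine D.ring_of_rec780 hw G SA h3 hap (HF D _ hvc h3 hap)
    (fun V₁ y₁ V₂ y₂ s1 s2 r1 r2 r3 r4 => swap_unique180 D hw G h3 d0.swap d2.swap.swap12 k2 k1
      H.ne12.symm hne2 h45 hT t1 t2 s1 s2 r1 r2 r3 r4)
    (W1 := V (0 - 1)) (W2 := V (0 + 1)) d0 d2 h2 h1 hT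
    (g1 := name 0 5) (g2 := name 0 4) ?_ ?_ ?_ (le3 _ _ _ p0 p1) (le3 _ _ _ q0 q1)
    H.ne12.symm (by rw [dist_comm]; exact hlt)
  · rw [hT]
    ext i
    simp only [mem_insert_iff, mem_singleton_iff]
    tauto
  · rw [d0.pal]
    simp only [mem_insert_iff, mem_singleton_iff]
    tauto
  · rw [d2.pal]
    simp only [mem_insert_iff, mem_singleton_iff]
    tauto

end Vale.Agent.P032.Six
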