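import Vale.Agent.P032.H538.State2
import Vale.Agent.P032.S5.H585.RingW
import Vale.Agent.P032.S5.H830.FinH
import Vale.Agent.P032.H715.Common
import Vale.Agent.P032.Carr.Ring

/-!
# P032, X: the Čech end with two-pair points in the disc

`ring_V` : the ring of `mesh_even3` from `RingOdd`.
`cech_endV` : labels on the ordinary pairs, cocycle at the three-sets without diagonal pair, the
four term identity at the two-pair points, the prescribed labels on the circle: contradiction.
-/

open Set Filter Topology Metric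

noncomputable section

namespace Vale.Agent.P032.Six

open Vale.Agent.P032.S5 Vale.Agent.P032.Carr Vale.Agent.P032.S5.Tab

variable {U : Fin 6 → Set ℂ} {T : ℂ → Set (Fin 6)} {f : ℂ → Set (Fin 6)} {Z : Set ℂ} {c : ℂ}
  {R δ₀ : ℝ} {v : ℂ} {S : Set (Fin 6)}

/-- the ring, values at points of the circle -/
theorem ring_V (H : Hm T Z f δ₀) (hv : ∀ y, dist y v = 1 → ¬ T y ⊆ S)
    {d e : Fin 6} (hde : d ≠ e)
    (unp : ∀ z ∈ Z, dist z v = 1 → ∃ i, i ∈ T z ∧ i ∉ f z ∧ i ∉ S)
    (R1 : ∀ᶠ δ in 𝓝[>] (0 : ℝ), ∀ N : ℕ, ∃ n ≥ N, ∀ l : ℕ → Fin 6, l n = l 0 →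
      (∀ k ≤ n, l k ∈ apx T Z δ (hp T f S) (v + cis (2 * Real.pi * k / n)) ∧ l k ∉ S) →
        ∑ k ∈ Finset.range n, eps (l k) (l (k + 1)) {d, e} = 1) :
    ∀ δ > 0, ∀ N : ℕ, ∃ n ≥ N, ∃ l : ℕ → Fin 6, ∃ u : ℕ → ℂ, (∀ k, l (k + n) = l k) ∧
      (∀ k, u (k + n) = u k) ∧ (∀ k, dist (u k) v = 1) ∧
      (∀ k : ℕ, dist (u k) (v + cis (2 * Real.pi * k / n)) < δ) ∧ (∀ k, l k ∈ T (u k)) ∧
      (∀ k, l k ∉ S) ∧
      (∀ k, l k ≠ l (k + 1) → ∃ w, dist w v = 1 ∧ dist w (v + cis (2 * Real.pi * k / n)) < δ ∧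
        l k ∈ T w ∧ l (k + 1) ∈ T w ∧ ¬ (w ∈ Z ∧ f w = {l k, l (k + 1)})) ∧
      ∑ k ∈ Finset.range n, (if ({l k, l (k + 1)} : Finset (Fin 6)) = {d, e} then 1 else 0) =
        (1 : ZMod 2) := by
  classical
  intro Δ hΔ N
  have hδ₀ := H.pos
  set ε := min (Δ / 8) (δ₀ / 8) with hεdef
  have hε : 0 < ε := lt_min (by positivity) (by positivity)
  have hεΔ : ε ≤ Δ / 8 := min_le_left _ _
  have hεδ : ε ≤ δ₀ / 8 := min_le_right _ _
  obtain ⟨η₁, hη₁, hnear⟩ := near_circle H.compact v hε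
  -- the scale
  obtain ⟨ρ, hR1, hρI⟩ := (R1.and (Ioo_mem_nhdsGT (lt_min hε hη₁))).exists
  obtain ⟨hρ, hρm⟩ := hρI
  have hρε : ρ < ε := hρm.trans_le (min_le_left _ _)
  have hρη : ρ < η₁ := hρm.trans_le (min_le_right _ _)
  -- the nearby points of `Z`
  have hAz : ∀ y, ∃ z0, (dist y v = 1 ∧ ∃ z ∈ Z, dist y z ≤ ρ) → z0 ∈ Z ∧ dist z0 v = 1 ∧
      dist y z0 < ρ + ε ∧ ∀ z ∈ Z, dist y z ≤ ρ → hp T f S z = hp T f S z0 := by
    intro y
    by_cases hy : dist y v = 1 ∧ ∃ z ∈ Z, dist y z ≤ ρ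
    · obtain ⟨hy1, z, hz, hyz⟩ := hy
      obtain ⟨z0, hz0, hz01, hd⟩ := hnear z hz ⟨y, hy1, hyz.trans_lt hρη⟩
      have hyz0 : dist y z0 < ρ + ε := by
        have := dist_triangle y z z0
        linarith
      refine ⟨z0, fun _ => ⟨hz0, hz01, hyz0, fun z' hz' hyz' => ?_⟩⟩
      refine H.hp_const hz' hz0 ?_ S
      have := dist_triangle_left z' z0 y
      linarith
    · exact ⟨0, fun h => absurd h hy⟩
  choose ζ hζ using hAz
  -- labels outside
  have hr : ∀ y, ∃ c, dist y v = 1 → c ∈ T y ∧ c ∉ S := by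
    intro y
    by_cases hy : dist y v = 1
    · obtain ⟨c, hc, hcS⟩ := Set.not_subset.1 (hv y hy)
      exact ⟨c, fun _ => ⟨hc, hcS⟩⟩
    · exact ⟨0, fun h => absurd h hy⟩
  choose rl hrl using hr
  -- the compact set and the radii
  let C : Set ℂ := sphere v 1 ∩ {y | ∀ z ∈ Z, ρ ≤ dist y z}
  have hCc : IsCompact C := (isCompact_sphere v 1).inter_right (by
    have : {y : ℂ | ∀ z ∈ Z, ρ ≤ dist y z} = ⋂ z ∈ Z, {y | ρ ≤ dist y z} := by
      ext y; simp
    rw [this]
    exact isClosed_biInter fun z _ => isClosed_le continuous_const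
      (continuous_id.dist continuous_const))
  have hCZ : ∀ y ∈ C, y ∉ Z := fun y hy hyZ => by
    have := hy.2 y hyZ
    rw [dist_self] at this
    linarith
  have hrad : ∀ y : C, ∃ r > 0, r ≤ Δ ∧ ∀ P : ℂ, dist P (y : ℂ) < r → T P ⊆ T (y : ℂ) := by
    rintro ⟨y, hy⟩
    obtain ⟨r, hr, h3⟩ := Metric.eventually_nhds_iff.1 (H.usc y)
    exact ⟨min r Δ, lt_min hr hΔ, min_le_right _ _, fun P hP =>
      h3 (hP.trans_le (min_le_left _ _))⟩
  choose r hr hrΔ hloc using hrad
  obtain ⟨η, hη, hB⟩ := lebesgue_number_lemma_of_metric hCc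
    (c := fun x : C => ball (x : ℂ) (r x)) (fun x => isOpen_ball)
    (fun x hx => mem_iUnion.2 ⟨⟨x, hx⟩, mem_ball_self (hr _)⟩)
  obtain ⟨M, hM⟩ := exists_nat_gt (2 * Real.pi / min η ε)
  obtain ⟨n, hn, hodd⟩ := hR1 (max N (max M 1))
  have hηε : 0 < min η ε := lt_min hη hε
  have hn0 : 0 < n := lt_of_lt_of_le Nat.one_pos
    ((le_max_right M 1).trans ((le_max_right N _).trans hn))
  have hn0' : (0 : ℝ) < n := by exact_mod_cast hn0
  have hMn : (M : ℝ) ≤ n := by
    exact_mod_cast (le_max_left M 1).trans ((le_max_right N _).trans hn)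
  have hstep : 2 * Real.pi / n < min η ε := by
    rw [div_lt_iff₀ hηε] at hM
    rw [div_lt_iff₀ hn0']
    nlinarith
  let P : ℕ → ℂ := fun k => v + cis (2 * Real.pi * k / n)
  have hP1 : ∀ k, dist (P k) v = 1 := by
    intro k
    simp only [P]
    rw [dist_eq_norm, add_sub_cancel_left]
    exact End.norm_cis _
  have hPpt : ∀ k, P k = End.pt v 1 n 1 k := by
    intro k
    simp [P, End.pt]
  have hPP : ∀ k, dist (P (k + 1)) (P k) < min η ε := by
    intro k
    rw [hPpt, hPpt, dist_comm]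
    exact (End.dist_pt_angular v Nat.one_pos hn0 le_rfl k).trans_lt hstep
  have hPper : ∀ k, P (k + n) = P k := by
    intro k
    rw [hPpt, hPpt, End.pt_period v hn0]
  let A : ℕ → Prop := fun k => ∃ z ∈ Z, dist (P k) z ≤ ρ
  let l : ℕ → Fin 6 := fun k => if A k then hp T f S (ζ (P k)) else rl (P k)
  let u : ℕ → ℂ := fun k => if A k then ζ (P k) else P k
  have hA : ∀ k, A k → ζ (P k) ∈ Z ∧ dist (ζ (P k)) v = 1 ∧ dist (P k) (ζ (P k)) < ρ + ε ∧
      ∀ z ∈ Z, dist (P k) z ≤ ρ → hp T f S z = hp T f S (ζ (P k)) :=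
    fun k hk => hζ (P k) ⟨hP1 k, hk⟩
  have hlA : ∀ k, A k → l k = hp T f S (ζ (P k)) := fun k hk => by simp only [l, if_pos hk]
  have hlB : ∀ k, ¬ A k → l k = rl (P k) := fun k hk => by simp only [l, if_neg hk]
  have huA : ∀ k, A k → u k = ζ (P k) := fun k hk => by simp only [u, if_pos hk]
  have huB : ∀ k, ¬ A k → u k = P k := fun k hk => by simp only [u, if_neg hk]
  have hapex : ∀ k, A k → l k ∈ T (ζ (P k)) ∧ l k ∉ f (ζ (P k)) ∧ l k ∉ S := by
    intro k hk
    obtain ⟨h1, h2, -, -⟩ := hA k hk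
    rw [hlA k hk]
    obtain ⟨h3, h4⟩ := H.apex h1 S
    exact ⟨h3, h4, pick_avoid (unp _ h1 h2)⟩
  have hlT : ∀ k, ¬ A k → l k ∈ T (P k) := fun k hk => by
    rw [hlB k hk]; exact (hrl (P k) (hP1 k)).1
  have hlS : ∀ k, l k ∉ S := fun k => by
    by_cases hk : A k
    · exact (hapex k hk).2.2
    · rw [hlB k hk]; exact (hrl (P k) (hP1 k)).2
  have hAper : ∀ k, A (k + n) ↔ A k := fun k => by simp only [A, hPper]
  have hper : ∀ k, l (k + n) = l k := by
    intro k
    simp only [l, hAper, hPper]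
  have huper : ∀ k, u (k + n) = u k := by
    intro k
    simp only [u, hAper, hPper]
  have hudist : ∀ k, dist (u k) (P k) < Δ := by
    intro k
    by_cases hk : A k
    · rw [huA k hk, dist_comm]
      have := (hA k hk).2.2.1
      linarith
    · rw [huB k hk, dist_self]; exact hΔ
  -- the step between a point near `Z` and another point
  have hmix : ∀ k k', dist (P k') (P k) < ε → A k → ¬ A k' → l k ≠ l k' →
      l k ∈ T (ζ (P k)) ∧ l k' ∈ T (ζ (P k)) ∧ ¬ (ζ (P k) ∈ Z ∧ f (ζ (P k)) = {l k, l k'}) ∧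
      dist (P k') (ζ (P k)) < Δ := by
    intro k k' hkk hk hk' hne
    obtain ⟨h1, h2, h3, -⟩ := hA k hk
    obtain ⟨h4, h5, h6⟩ := hapex k hk
    have hd : dist (P k') (ζ (P k)) < 3 * ε := by
      have := dist_triangle (P k') (P k) (ζ (P k))
      linarith
    refine ⟨h4, ?_, ?_, by linarith⟩
    · exact H.sub _ h1 (P k') (by linarith) (hlT k' hk')
    · rintro ⟨-, he⟩
      exact h5 (by rw [he]; simp)
  refine ⟨n, (le_max_left _ _).trans hn, l, u, hper, huper, fun k => ?_, hudist, fun k => ?_, hlS,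
    fun k hk => ?_, ?_⟩
  · by_cases hk : A k
    · rw [huA k hk]; exact (hA k hk).2.1
    · rw [huB k hk]; exact hP1 k
  · by_cases hk : A k
    · rw [huA k hk]; exact (hapex k hk).1
    · rw [huB k hk]; exact hlT k hk
  · -- steps
    have hs1 : dist (P (k + 1)) (P k) < ε := (hPP k).trans_le (min_le_right _ _)
    by_cases hk1 : A k
    · by_cases hk2 : A (k + 1)
      · exfalso
        apply hk
        rw [hlA k hk1, hlA (k + 1) hk2]
        obtain ⟨h1, -, h3, -⟩ := hA k hk1
        obtain ⟨h1', -, h3', -⟩ := hA (k + 1) hk2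
        refine H.hp_const h1 h1' ?_ S
        have t1 := dist_triangle_left (ζ (P k)) (ζ (P (k + 1))) (P k)
        have t2 := dist_triangle_left (P k) (ζ (P (k + 1))) (P (k + 1))
        linarith
      · obtain ⟨h1, h2, h3, -⟩ := hmix k (k + 1) hs1 hk1 hk2 hk
        refine ⟨ζ (P k), (hA k hk1).2.1, ?_, h1, h2, h3⟩
        rw [dist_comm]
        have := (hA k hk1).2.2.1
        show dist (P k) _ < Δ
        linarith
    · by_cases hk2 : A (k + 1)
      · obtain ⟨h1, h2, h3, h4⟩ := hmix (k + 1) k (by rw [dist_comm]; exact hs1) hk2 hk1 hk.symm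
        refine ⟨ζ (P (k + 1)), (hA _ hk2).2.1, ?_, h2, h1, ?_⟩
        · rw [dist_comm]; exact h4
        · rwa [Set.pair_comm]
      · have hCk : ∀ m, ¬ A m → P m ∈ C := fun m hm => by
          refine ⟨mem_sphere.2 (hP1 m), fun z hz => ?_⟩
          by_contra hcon
          exact hm ⟨z, hz, (not_le.1 hcon).le⟩
        obtain ⟨y, hy⟩ := hB (P k) (hCk k hk1)
        have h1 : dist (P k) (y : ℂ) < r y := hy (mem_ball_self hη)
        have h2 : dist (P (k + 1)) (y : ℂ) < r y :=
          hy (mem_ball.2 ((hPP k).trans_le (min_le_left _ _)))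
        have hy1 : dist (y : ℂ) v = 1 := y.2.1
        refine ⟨y, hy1, ?_, hloc y (P k) h1 (hlT k hk1), hloc y (P (k + 1)) h2 (hlT (k + 1) hk2),
          fun he => hCZ _ y.2 he.1⟩
        rw [dist_comm]
        exact h1.trans_le (hrΔ y)
  · -- the sum
    have h1 := hodd l (by have := hper 0; rwa [zero_add] at this) fun k _ => ⟨by
      by_cases hk : A k
      · obtain ⟨z, hz, hd⟩ := id hk
        refine Or.inr ⟨z, hz, hd, ?_⟩
        rw [hlA k hk]
        exact (hA k hk).2.2.2 z hz hd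
      · refine Or.inl ⟨hlT k hk, fun z hz => ?_⟩
        by_contra hcon
        exact hk ⟨z, hz, (not_le.1 hcon).le⟩, hlS k⟩
    refine Eq.trans (Finset.sum_congr rfl fun k _ => ?_) h1
    unfold eps
    by_cases hk : l k = l (k + 1)
    · rw [if_neg, if_neg]
      · exact fun h5 => h5.1 hk
      · rw [hk]
        intro h5
        have h6 : d ∈ ({l (k + 1), l (k + 1)} : Finset (Fin 6)) := by rw [h5]; simp
        have h7 : e ∈ ({l (k + 1), l (k + 1)} : Finset (Fin 6)) := by rw [h5]; simp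
        simp only [Finset.mem_insert, Finset.mem_singleton, or_self] at h6 h7
        exact hde (h6.trans h7.symm)
    · by_cases h5 : ({l k, l (k + 1)} : Finset (Fin 6)) = {d, e}
      · rw [if_pos h5, if_pos ⟨hk, h5.symm⟩]
      · rw [if_neg h5, if_neg fun h6 => h5 h6.2.symm]

/-- diagonal pair: the arc pair of a harmless point, any of the two pairs of a two-pair point -/
def Dg (T : ℂ → Set (Fin 6)) (x : ℂ) (i j : Fin 6) : Prop :=
  Six.Harm T x {i, j} ∨ ∃ m n, DPt T x i j m n

theorem Dg.symm780 {x : ℂ} {i j : Fin 6} (h : Dg T x i j) : Dg T x j i := by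
  rcases h with h | ⟨m, n, h⟩
  · exact Or.inl (by rwa [Set.pair_comm])
  · exact Or.inr ⟨m, n, h.swap12⟩

theorem Dg.ncard780 {x : ℂ} {i j : Fin 6} (h : Dg T x i j) : 4 ≤ (T x).ncard := by
  rcases h with h | ⟨m, n, h⟩
  · exact h.card.ge
  · exact h.ncard.ge

/-- the diagonal pairs of a harmless point -/
theorem Dg.harm780 {x : ℂ} {i j : Fin 6} (h : Dg T x i j) {A : Set (Fin 6)}
    (hA : Six.Harm T x A) : A = {i, j} := by
  rcases h with h | ⟨m, n, h⟩
  · exact h.unique hA
  · exact absurd h fun h => not_harm_of_dpt hA h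

/-- the diagonal pairs of a two-pair point -/
theorem Dg.dpt780 (hI : Irr U T) {x : ℂ} {i j a b m n : Fin 6} (h : Dg T x i j)
    (hD : DPt T x a b m n) : ({i, j} : Set (Fin 6)) = {a, b} ∨ ({i, j} : Set (Fin 6)) = {m, n} := by
  rcases h with h | ⟨m', n', h⟩
  · exact absurd hD fun h' => not_harm_of_dpt h h'
  · obtain ⟨p, hp, hpJ⟩ := h.arc1
    have h1 : T p = {i, j} := hpJ.self_of_nhdsWithin (mem_sphere.2 hp)
    have h2 := hI.pairs715 hD hp (by rw [h1]; exact hpJ) (by
      rw [h1, h.pal]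
      intro k hk
      simp only [mem_insert_iff, mem_singleton_iff] at hk ⊢
      tauto)
    rwa [h1] at h2

/-- a pair which meets a diagonal pair in one colour is not diagonal -/
theorem Dg.not780 (hI : Irr U T) {x : ℂ} {i j k : Fin 6} (_hij : i ≠ j) (h : Dg T x i j)
    (hki : k ≠ i) (hkj : k ≠ j) : ¬ Dg T x i k ∧ ¬ Dg T x j k := by
  have key : ∀ p q : Fin 6, p ≠ q → Dg T x p q → ({p, q} : Set (Fin 6)) = {i, j} ∨
      (p ≠ i ∧ p ≠ j ∧ q ≠ i ∧ q ≠ j) := by
    intro p q hpq hq
    rcases h with h | ⟨m, n, h⟩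
    · exact Or.inl (hq.harm780 h).symm
    · rcases hq.dpt780 hI h with h1 | h1
      · exact Or.inl h1
      · right
        have hp : p ∈ ({m, n} : Set (Fin 6)) := by rw [← h1]; simp
        have hq' : q ∈ ({m, n} : Set (Fin 6)) := by rw [← h1]; simp
        simp only [mem_insert_iff, mem_singleton_iff] at hp hq'
        have g1 := h.ac
        have g2 := h.ad
        have g3 := h.bc
        have g4 := h.bd
        rcases hp with rfl | rfl <;> rcases hq' with rfl | rfl <;>
          exact ⟨Ne.symm (by assumption), Ne.symm (by assumption), Ne.symm (by assumption),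
            Ne.symm (by assumption)⟩
  constructor
  · intro hd
    rcases key i k hki.symm hd with h1 | h1
    · have : k ∈ ({i, j} : Set (Fin 6)) := by rw [← h1]; simp
      simp only [mem_insert_iff, mem_singleton_iff] at this
      tauto
    · exact h1.1 rfl
  · intro hd
    rcases key j k hkj.symm hd with h1 | h1
    · have : k ∈ ({i, j} : Set (Fin 6)) := by rw [← h1]; simp
      simp only [mem_insert_iff, mem_singleton_iff] at this
      tauto
    · exact h1.2.1 rfl

namespace DSt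

variable (D : DSt U T Z f c R δ₀)
include D

/-- near a diagonal pair -/
theorem dg_loc780 (hvc : dist v c ≤ R - 1) {x : ℂ} (hx : x ∈ closedBall v 1) {i j : Fin 6}
    (h : Dg T x i j) : ∀ᶠ y in 𝓝 x, y ∈ closedBall v 1 → i ∈ T y → j ∈ T y →
      T y = T x ∧ Dg T y i j := by
  have hxZ : x ∈ Z := D.memZ hvc hx h.ncard780
  rcases h with h | ⟨m, n, h⟩
  · have hf : f x = {i, j} := D.ch.harm x _ h
    filter_upwards [ball_mem_nhds x D.hm.pos] with y hy hyv hi hj
    have hd : dist y x ≤ δ₀ := (mem_ball.1 hy).le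
    have hyZ : y ∈ Z := by
      by_contra hcon
      refine D.hm.forb x hxZ y hd hcon ?_
      rw [hf]
      rintro k (rfl | rfl)
      · exact hi
      · exact hj
    obtain ⟨e1, e2⟩ := D.hm.const x hxZ y hyZ hd
    refine ⟨e1, ?_⟩
    rw [hf] at e2
    rcases D.df.harm_or (D.zs.four y hyZ) with ⟨A, hA⟩ | ⟨a, b, c', d, hD⟩
    · left
      rw [← e2, D.ch.harm y A hA]
      exact hA
    · rcases D.ch.two y a b c' d hD with h1 | h1
      · rw [e2] at h1
        have ha : i = a ∨ i = b := by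
          have : i ∈ ({a, b} : Set (Fin 6)) := by rw [← h1]; simp
          simpa using this
        have hb : j = a ∨ j = b := by
          have : j ∈ ({a, b} : Set (Fin 6)) := by rw [← h1]; simp
          simpa using this
        have hij : i ≠ j := by
          rintro rfl
          have := h.cardA
          simp at this
        right
        rcases ha with rfl | rfl <;> rcases hb with rfl | rfl
        · exact absurd rfl hij
        · exact ⟨_, _, hD⟩
        · exact ⟨_, _, hD.swap12⟩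
        · exact absurd rfl hij
      · rw [e2] at h1
        have ha : i = c' ∨ i = d := by
          have : i ∈ ({c', d} : Set (Fin 6)) := by rw [← h1]; simp
          simpa using this
        have hb : j = c' ∨ j = d := by
          have : j ∈ ({c', d} : Set (Fin 6)) := by rw [← h1]; simp
          simpa using this
        have hij : i ≠ j := by
          rintro rfl
          have := h.cardA
          simp at this
        right
        rcases ha with rfl | rfl <;> rcases hb with rfl | rfl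
        · exact absurd rfl hij
        · exact ⟨_, _, hD.swap⟩
        · exact ⟨_, _, hD.swap.swap12⟩
        · exact absurd rfl hij
  · obtain ⟨p, hp, hpJ⟩ := h.arc1
    have hpT : T p = {i, j} := hpJ.self_of_nhdsWithin (mem_sphere.2 hp)
    filter_upwards [D.df.irr.no_layer hp, D.df.isolated4 h] with y h1 h2 hyv hi hj
    have h3 : y = x := h2 (h1 (by
      rw [hpT]
      rintro k (rfl | rfl)
      · exact hi
      · exact hj))
    rw [h3]
    exact ⟨rfl, Or.inr ⟨m, n, h⟩⟩

/-- near an ordinary pair -/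
theorem not_dg_loc780 (hvc : dist v c ≤ R - 1) {x : ℂ} (hx : x ∈ closedBall v 1) {i j : Fin 6}
    (h : ¬ Dg T x i j) : ∀ᶠ y in 𝓝 x, y ∈ closedBall v 1 → ¬ Dg T y i j := by
  by_cases h4 : 4 ≤ (T x).ncard
  · have hxZ : x ∈ Z := D.memZ hvc hx h4
    rcases D.df.harm_or h4 with ⟨A, hA⟩ | ⟨a, b, c', d, hD⟩
    · have hf : f x = A := D.ch.harm x A hA
      have hev : ∀ᶠ w in 𝓝 x, ¬ ∃ a b c d, DPt T w a b c d := by
        rw [← not_frequently]
        intro hcl
        obtain ⟨a, b, c, d, hD⟩ := D.df.dpt_of_closure (mem_closure_iff_frequently.2 hcl)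
        exact not_harm_of_dpt hA hD
      filter_upwards [hev, ball_mem_nhds x D.hm.pos] with y h1 h2 hyv hdg
      have hyZ : y ∈ Z := D.memZ hvc hyv hdg.ncard780
      obtain ⟨e1, e2⟩ := D.hm.const x hxZ y hyZ (mem_ball.1 h2).le
      rcases hdg with h3 | ⟨m, n, h3⟩
      · apply h
        left
        have e3 := D.ch.harm y _ h3
        rw [e2, hf] at e3
        rw [← e3]
        exact hA
      · exact h1 ⟨_, _, _, _, h3⟩
    · filter_upwards [D.df.isolated4 hD] with y h1 hyv hdg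
      have h2 : y = x := h1 hdg.ncard780
      rw [h2] at hdg
      exact h hdg
  · filter_upwards [D.df.irr.nhd x] with y hy _ hdg
    have := Set.ncard_le_ncard hy (Set.toFinite _)
    have := hdg.ncard780
    omega

/-- **The Čech end with two-pair points.** -/
theorem cech_endV (hvc : dist v c ≤ R - 1) (hv : T v = {3, 4, 5})
    (hap : ∀ z, dist z v = 1 → 4 ≤ (T z).ncard → ¬ T z \ f z ⊆ T v) (hring : RingOdd T Z f v)
    (Ψ : Fin 6 → Fin 6 → ℂ → ZMod 2) (sym : ∀ i j x, Ψ i j x = Ψ j i x)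
    (loc : ∀ i j, i ≠ j → ∀ x ∈ closedBall v 1, i ∈ T x → j ∈ T x → ¬ Dg T x i j →
      ∀ᶠ y in 𝓝 x, y ∈ closedBall v 1 → i ∈ T y → j ∈ T y → Ψ i j y = Ψ i j x)
    (bas : ∀ x ∈ closedBall v 1, ∀ i j k, i ≠ j → j ≠ k → i ≠ k → i ∈ T x → j ∈ T x → k ∈ T x →
      ¬ Dg T x i j → ¬ Dg T x j k → ¬ Dg T x i k → Ψ i j x + Ψ j k x + Ψ i k x = 0)
    (four : ∀ x ∈ closedBall v 1, ∀ a b m n, DPt T x a b m n →
      Ψ a m x + Ψ m b x + Ψ b n x + Ψ n a x = 0)
    (eps1 : ∀ x, dist x v = 1 → ∀ i j, i ≠ j → i ∈ T x → j ∈ T x → i ∉ T v → j ∉ T v →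
      ¬ Dg T x i j → Ψ i j x = if ({i, j} : Finset (Fin 6)) = {0, 1} then 1 else 0)
    (epsV : ∀ x, dist x v = 1 → ∀ a b m n, DPt T x a b m n → f x = {m, n} → a ∉ T v → b ∉ T v →
      Ψ a m x + Ψ m b x = if ({a, b} : Finset (Fin 6)) = {0, 1} then 1 else 0) : False := by
  classical
  have hI := D.df.irr
  -- the third colour
  let kk : Set (Fin 6) → Finset (Fin 6) → Fin 6 := fun S p =>
    if hh : ∃ k, k ∈ S ∧ k ∉ p then hh.choose else 0
  have hkk : ∀ x, ∀ i j : Fin 6, Dg T x i j →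
      kk (T x) {i, j} ∈ T x ∧ kk (T x) {i, j} ≠ i ∧ kk (T x) {i, j} ≠ j := by
    intro x i j hd
    have hh : ∃ k, k ∈ T x ∧ k ∉ ({i, j} : Finset (Fin 6)) := by
      by_contra hcon
      push Not at hcon
      have h1 : T x ⊆ {i, j} := fun k hk => by simpa using hcon k hk
      have h2 := Set.ncard_le_ncard h1 (Set.toFinite _)
      have h3 := hd.ncard780
      have h4 : ({i, j} : Set (Fin 6)).ncard ≤ 2 := (Set.ncard_insert_le _ _).trans (by simp)
      omega
    have h1 := hh.choose_spec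
    simp only [kk, dif_pos hh]
    refine ⟨h1.1, fun h2 => h1.2 ?_, fun h2 => h1.2 ?_⟩
    · rw [h2]; simp
    · rw [h2]; simp
  let φ : Fin 6 → Fin 6 → ℂ → ZMod 2 := fun i j x =>
    if Dg T x i j then Ψ i (kk (T x) {i, j}) x + Ψ j (kk (T x) {i, j}) x else Ψ i j x
  have φ1 : ∀ i j x, Dg T x i j →
      φ i j x = Ψ i (kk (T x) {i, j}) x + Ψ j (kk (T x) {i, j}) x := by
    intro i j x hx
    simp only [φ, if_pos hx]
  have φ0 : ∀ i j x, ¬ Dg T x i j → φ i j x = Ψ i j x := by
    intro i j x hx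
    simp only [φ, if_neg hx]
  have φs : ∀ i j x, φ i j x = φ j i x := by
    intro i j x
    by_cases hx : Dg T x i j
    · rw [φ1 i j x hx, φ1 j i x hx.symm780, Finset.pair_comm i j, add_comm]
    · rw [φ0 i j x hx, φ0 j i x fun h => hx h.symm780, sym]
  -- independence of the third colour
  have hind : ∀ x ∈ closedBall v 1, ∀ i j k, i ≠ j → Dg T x i j → k ∈ T x → k ≠ i → k ≠ j →
      φ i j x = Ψ i k x + Ψ j k x := by
    intro x hx i j k hij hd hk hki hkj
    obtain ⟨hk', hki', hkj'⟩ := hkk x i j hd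
    rw [φ1 i j x hd]
    generalize kk (T x) {i, j} = k' at *
    by_cases hkk' : k = k'
    · subst hkk'; rfl
    rcases hd with h | ⟨m, n, h⟩
    · have hd : Dg T x i j := Or.inl h
      obtain ⟨n1, n2⟩ := hd.not780 hI hij hki hkj
      obtain ⟨n3, n4⟩ := hd.not780 hI hij hki' hkj'
      have n5 : ¬ Dg T x k k' := by
        intro hcon
        have := hcon.harm780 h
        have h1 : k ∈ ({i, j} : Set (Fin 6)) := by rw [this]; simp
        simp only [mem_insert_iff, mem_singleton_iff] at h1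
        tauto
      have hi : i ∈ T x := h.sub (by simp)
      have hj : j ∈ T x := h.sub (by simp)
      have c1 := bas x hx i k k' hki.symm hkk' hki'.symm hi hk hk' n1 n5 n3
      have c2 := bas x hx j k k' hkj.symm hkk' hkj'.symm hj hk hk' n2 n5 n4
      revert c1 c2
      generalize Ψ i k x = a
      generalize Ψ j k x = b
      generalize Ψ i k' x = c
      generalize Ψ j k' x = d
      generalize Ψ k k' x = e
      revert a b c d e
      decide
    · have hk1 : k = m ∨ k = n := by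
        rw [h.pal] at hk
        simp only [mem_insert_iff, mem_singleton_iff] at hk
        tauto
      have hk2 : k' = m ∨ k' = n := by
        rw [h.pal] at hk'
        simp only [mem_insert_iff, mem_singleton_iff] at hk'
        tauto
      have c1 := four x hx i j m n h
      rw [sym m j, sym n i] at c1
      rcases hk1 with rfl | rfl <;> rcases hk2 with rfl | rfl
      · exact absurd rfl hkk'
      · revert c1
        generalize Ψ i k x = a
        generalize Ψ j k x = b
        generalize Ψ i k' x = c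
        generalize Ψ j k' x = d
        revert a b c d
        decide
      · revert c1
        generalize Ψ i k x = a
        generalize Ψ j k x = b
        generalize Ψ i k' x = c
        generalize Ψ j k' x = d
        revert a b c d
        decide
      · exact absurd rfl hkk'
  have hA : ∀ x ∈ closedBall v 1, ∀ i j k, i ≠ j → j ≠ k → i ≠ k → k ∈ T x → Dg T x i j →
      φ i j x + φ j k x + φ i k x = 0 := by
    intro x hx i j k hij hjk hik hk hd
    obtain ⟨n1, n2⟩ := hd.not780 hI hij hik.symm hjk.symm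
    rw [hind x hx i j k hij hd hk hik.symm hjk.symm, φ0 j k x n2, φ0 i k x n1]
    generalize Ψ i k x = a
    generalize Ψ j k x = b
    revert a b
    decide
  have φl : ∀ i j, i ≠ j → ∀ x ∈ closedBall v 1, i ∈ T x → j ∈ T x →
      ∀ᶠ y in 𝓝 x, y ∈ closedBall v 1 → i ∈ T y → j ∈ T y → φ i j y = φ i j x := by
    intro i j hij x hx hi hj
    by_cases hd : Dg T x i j
    · obtain ⟨hk', hki', hkj'⟩ := hkk x i j hd
      obtain ⟨n1, n2⟩ := hd.not780 hI hij hki' hkj'
      filter_upwards [D.dg_loc780 hvc hx hd, loc i _ hki'.symm x hx hi hk' n1,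
        loc j _ hkj'.symm x hx hj hk' n2] with y h1 h2 h3 hyv hyi hyj
      obtain ⟨e1, e2⟩ := h1 hyv hyi hyj
      have hky : kk (T x) {i, j} ∈ T y := by rw [e1]; exact hk'
      rw [φ1 i j y e2, φ1 i j x hd, e1, h2 hyv hyi hky, h3 hyv hyj hky]
    · filter_upwards [D.not_dg_loc780 hvc hx hd, loc i j hij x hx hi hj hd]
        with y h1 h2 hyv hyi hyj
      rw [φ0 i j y (h1 hyv), φ0 i j x hd, h2 hyv hyi hyj]
  have φc : ∀ x ∈ closedBall v 1, ∀ i j k, i ≠ j → j ≠ k → i ≠ k → i ∈ T x → j ∈ T x →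
      k ∈ T x → φ i j x + φ j k x + φ i k x = 0 := by
    intro x hx i j k hij hjk hik hi hj hk
    by_cases e1 : Dg T x i j
    · exact hA x hx i j k hij hjk hik hk e1
    by_cases e2 : Dg T x j k
    · have h1 := hA x hx j k i hjk hik.symm hij.symm hi e2
      rw [φs k i, φs j i] at h1
      rw [← h1]
      ring
    by_cases e3 : Dg T x i k
    · have h1 := hA x hx i k j hik hjk.symm hij hj e3
      rw [φs k j] at h1
      rw [← h1]
      ring
    rw [φ0 i j x e1, φ0 j k x e2, φ0 i k x e3]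
    exact bas x hx i j k hij hjk hik hi hj hk e1 e2 e3
  have hT3 : (T v).ncard = 3 := by
    rw [hv]
    exact ncard_triple (by decide) (by decide) (by decide)
  obtain ⟨δ, hδ, N, hN⟩ := S5.EndX.mesh_even3 (K := T) (v := v) (φ := φ) hI.nhd
    (fun x _ => hI.ne x) φs φl φc
  have h01 : (0 : Fin 6) ∉ T v ∧ (1 : Fin 6) ∉ T v := by
    rw [hv]
    constructor <;> · simp only [mem_insert_iff, mem_singleton_iff]; decide
  obtain ⟨n, hn, l, u, h1, h2, h3, h4, h5, h6, h7, h8⟩ :=
    ring_V D.hm (fun y hy => hI.not_sub hy hT3.le) (show (0 : Fin 6) ≠ 1 by decide)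
      (fun z hz hzv => by
        obtain ⟨i, hi, hi'⟩ := Set.not_subset.1 (hap z hzv (D.zs.four z hz))
        exact ⟨i, hi.1, hi.2, hi'⟩)
      (by
        filter_upwards [hring 0 1 (by decide) h01.1 h01.2] with δ hδ N
        obtain ⟨j, hj, hjN⟩ := (hδ.and (eventually_ge_atTop N)).exists
        refine ⟨6 * 2 ^ j, ?_, fun l hl hlab => hj l hl fun k hk => ?_⟩
        · have h1 : j < 2 ^ j := Nat.lt_two_pow_self
          omega
        · rw [pt_cis]
          exact hlab k hk) (δ / 2) (by positivity) N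
  have h9 := hN n hn l u h1 h2 (fun k => ⟨mem_closedBall.2 (h3 k).le, (h4 k).trans (by linarith),
    h5 k⟩) (fun k => if ({l k, l (k + 1)} : Finset (Fin 6)) = {0, 1} then 1 else 0) (by
    intro k hk
    obtain ⟨w, q1, q2, q3, q4, q5⟩ := h7 k hk
    have hwv : w ∈ closedBall v 1 := mem_closedBall.2 q1.le
    refine ⟨w, hwv, ?_, q3, q4, ?_⟩
    · have := h4 k
      have := dist_triangle_right w (u k) (v + cis (2 * Real.pi * k / n))
      linarith
    · by_cases hd : Dg T w (l k) (l (k + 1))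
      · have hwZ : w ∈ Z := D.memZ hvc q1.le hd.ncard780
        rcases hd with hd | ⟨m, n, hd⟩
        · exact absurd ⟨hwZ, D.ch.harm w _ hd⟩ q5
        · have hf : f w = {m, n} :=
            (D.ch.two w _ _ _ _ hd).resolve_left fun hcon => q5 ⟨hwZ, hcon⟩
          have hm : m ∈ T w := by rw [hd.pal]; simp
          rw [hind w hwv _ _ m hk (Or.inr ⟨m, n, hd⟩) hm hd.ac.symm hd.bc.symm,
            sym (l (k + 1)) m]
          exact epsV w q1 _ _ m n hd hf (h6 k) (h6 (k + 1))
      · rw [φ0 _ _ _ hd]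
        exact eps1 w q1 _ _ hk q3 q4 (h6 k) (h6 (k + 1)) hd)
  rw [S5.EndX.sum_eps_eq, h9] at h8
  exact absurd h8 (by decide)

end DSt

end Vale.Agent.P032.Six
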