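import Vale.Agent.P032.H780.CechV
import Vale.Agent.P032.H553.RPN

/-!
# P032, X, state A: the state functions of a disc are the links of one projective plane

`PolA` : the polygons of the disc (closed sets `Q k` with an inner colour `I k` and a six-vertex
projective plane `Nk k`), the states of the other colours at the points of `Q k` are the links of
`Nk k`; agreement and the complement rule at the points outside.
`PolA.all` : if the disc meets `Q k₀` then every state of every point outside the polygons is the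
link of `Nk k₀`.  `PolA.stateA_false` : one three coloured point `v` with odd ring whose complement
is not a face of the plane.
-/

open Set Filter Topology Metric

noncomputable section

namespace Vale.Agent.P032.Six

open Vale.Agent.P032.S5 Vale.Agent.P032.Carr Vale.Agent.P032.S5.Tab

/-- the link of the colour `i` -/
def Lk (N : Ch) (i b c : Fin 6) : ZMod 2 := if i ≠ b ∧ i ≠ c ∧ b ≠ c then N {i, b, c} else 0

theorem Lk_eq {N : Ch} {i b c : Fin 6} (h1 : i ≠ b) (h2 : i ≠ c) (h3 : b ≠ c) :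
    Lk N i b c = N {i, b, c} := if_pos ⟨h1, h2, h3⟩

theorem Lk_swap (N : Ch) {i j : Fin 6} (hij : i ≠ j) (d : Fin 6) : Lk N i j d = Lk N j i d := by
  unfold Lk
  have : ({i, j, d} : Finset (Fin 6)) = {j, i, d} := by
    ext x; simp only [Finset.mem_insert, Finset.mem_singleton]; tauto
  rw [this]
  by_cases h1 : i = d <;> by_cases h2 : j = d <;> simp [h1, h2, hij, hij.symm]

/-- two planes with one common link -/
theorem Lk_inj {N N' : Ch} (h : RPN N) (h' : RPN N') {i : Fin 6} (hl : Lk N i = Lk N' i) :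
    Lk N = Lk N' := by
  have h1 : ∀ a b c, a ≠ b → a ≠ c → b ≠ c → N {a, b, c} = N' {a, b, c} := by
    intro a b c hab hac hbc
    refine h.eq_of_link h' (i := i) (fun a b hab ha hb => ?_) hab hac hbc
    have := congrFun (congrFun hl a) b
    rwa [Lk_eq ha.symm hb.symm hab, Lk_eq ha.symm hb.symm hab] at this
  funext a b c
  unfold Lk
  split_ifs with hh
  · exact h1 a b c hh.1 hh.2.1 hh.2.2
  · rfl

/-- a locally constant property is constant on connected sets -/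
theorem clopen780 {C : Set ℂ} (hC : IsPreconnected C) {P : ℂ → Prop}
    (h : ∀ x ∈ C, ∀ᶠ y in 𝓝 x, y ∈ C → (P y ↔ P x)) {x y : ℂ} (hx : x ∈ C) (hy : y ∈ C) :
    P x ↔ P y := by
  classical
  have h1 : ContinuousOn (fun z => decide (P z)) C := fun z hz => by
    refine tendsto_const_nhds.congr' ?_
    filter_upwards [mem_nhdsWithin_of_mem_nhds (h z hz), self_mem_nhdsWithin] with w hw hwC
    exact (decide_eq_decide.2 (hw hwC)).symm
  exact decide_eq_decide.1 (hC.constant h1 hx hy)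

variable {U : Fin 6 → Set ℂ} {T : ℂ → Set (Fin 6)} {f : ℂ → Set (Fin 6)} {Z : Set ℂ} {c : ℂ}
  {R δ₀ : ℝ} {v : ℂ}

/-- agreement of the states of two colours at `x` -/
def AgAt (T : ℂ → Set (Fin 6)) (Z : Set ℂ) (f : ℂ → Set (Fin 6)) (δ₀ : ℝ) (x : ℂ)
    (i j : Fin 6) : Prop :=
  i ≠ j ∧ ∀ d, i ≠ d → j ≠ d → lamT T Z f δ₀ i x j d = lamT T Z f δ₀ j x i d

/-- the polygons of the disc of `v` and the rules outside of them (`agr`: at a pinned three coloured
point two of the three agreements suffice) -/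
structure PolA (T : ℂ → Set (Fin 6)) (Z : Set ℂ) (f : ℂ → Set (Fin 6)) (δ₀ : ℝ) (v : ℂ)
    {κ : Type*} (Q : κ → Set ℂ) (I : κ → Fin 6) (Nk : κ → Ch) : Prop where
  rpn : ∀ k, RPN (Nk k)
  lf : ∀ x ∈ closedBall v 1, ∀ᶠ y in 𝓝 x, ∀ k, y ∈ Q k → x ∈ Q k
  op : ∀ x ∈ closedBall v 1, ∀ k, x ∈ Q k → ∀ᶠ y in 𝓝 x, I k ∈ T y → y ∈ Q k
  dis : ∀ x ∈ closedBall v 1, ∀ k l, x ∈ Q k → x ∈ Q l → k ≠ l → Lk (Nk k) = Lk (Nk l) ∨
    ∃ i ∈ T x, i ≠ I k ∧ i ≠ I l
  st : ∀ x ∈ closedBall v 1, ∀ k, x ∈ Q k → ∀ i ∈ T x, i ≠ I k →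
    ∀ b d, i ≠ b → i ≠ d → b ≠ d → lamT T Z f δ₀ i x b d = Nk k {i, b, d}
  agr : ∀ x ∈ closedBall v 1, (∀ k, x ∉ Q k) → ∀ i ∈ T x, ∀ j ∈ T x, i ≠ j → ¬ Dg T x i j →
    AgAt T Z f δ₀ x i j ∨ ∃ k ∈ T x, AgAt T Z f δ₀ x i k ∧ AgAt T Z f δ₀ x k j
  r1 : ∀ x ∈ closedBall v 1, (∀ k, x ∉ Q k) → ∀ i j a b d e : Fin 6, [i, j, a, b, d, e].Nodup →
    i ∈ T x → j ∈ T x → lamT T Z f δ₀ i x a b ≠ 0 → lamT T Z f δ₀ j x d e ≠ 0 → False

/-- a state with distinct colours is a link -/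
theorem lamT_eq_Lk {i : Fin 6} {x : ℂ} {N : Ch}
    (h : ∀ b d, i ≠ b → i ≠ d → b ≠ d → lamT T Z f δ₀ i x b d = N {i, b, d}) :
    lamT T Z f δ₀ i x = Lk N i := by
  funext b d
  by_cases h1 : i = b
  · subst h1
    rw [lamT_self]
    simp [Lk]
  by_cases h2 : i = d
  · subst h2
    rw [lamT_symm, lamT_self]
    simp [Lk]
  by_cases h3 : b = d
  · subst h3
    rw [lamT_diag]
    simp [Lk]
  rw [h b d h1 h2 h3, Lk_eq h1 h2 h3]

namespace PolA

variable {κ : Type*} {Q : κ → Set ℂ} {I : κ → Fin 6} {Nk : κ → Ch}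

/-- the states of `x` outside the inner colours are the links of `N` -/
def Gd (T : ℂ → Set (Fin 6)) (Z : Set ℂ) (f : ℂ → Set (Fin 6)) (δ₀ : ℝ) (Q : κ → Set ℂ)
    (I : κ → Fin 6) (Nk : κ → Ch) (N : Ch) (x : ℂ) : Prop :=
  (∀ i ∈ T x, (∀ k, x ∈ Q k → i ≠ I k) → lamT T Z f δ₀ i x = Lk N i) ∧
    ∀ k, x ∈ Q k → Lk (Nk k) = Lk N

theorem st' (G : PolA T Z f δ₀ v Q I Nk) {x : ℂ} (hx : x ∈ closedBall v 1) {k : κ} (hk : x ∈ Q k)
    {i : Fin 6} (hi : i ∈ T x) (hik : i ≠ I k) : lamT T Z f δ₀ i x = Lk (Nk k) i :=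
  lamT_eq_Lk (G.st x hx k hk i hi hik)

theorem dis' (G : PolA T Z f δ₀ v Q I Nk) {x : ℂ} (hx : x ∈ closedBall v 1) {k l : κ}
    (hk : x ∈ Q k) (hl : x ∈ Q l) : Lk (Nk k) = Lk (Nk l) := by
  by_cases hkl : k = l
  · rw [hkl]
  · rcases G.dis x hx k l hk hl hkl with h | ⟨i, hi, h1, h2⟩
    · exact h
    · refine Lk_inj (G.rpn k) (G.rpn l) (i := i) ?_
      rw [← G.st' hx hk hi h1, G.st' hx hl hi h2]

/-- at the points of a polygon -/
theorem gd_iff (G : PolA T Z f δ₀ v Q I Nk) {x : ℂ} (hx : x ∈ closedBall v 1) {k : κ}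
    (hk : x ∈ Q k) {N : Ch} : Gd T Z f δ₀ Q I Nk N x ↔ Lk (Nk k) = Lk N := by
  constructor
  · exact fun h => h.2 k hk
  · intro h
    refine ⟨fun i hi hI => ?_, fun l hl => (G.dis' hx hl hk).trans h⟩
    rw [G.st' hx hk hi (hI k hk), h]

variable (D : DSt U T Z f c R δ₀)
include D

/-- **one step outside the polygons** -/
theorem step (G : PolA T Z f δ₀ v Q I Nk) (hvc : dist v c ≤ R - 2) {N : Ch} (hN : RPN N) {x : ℂ}
    (hx : x ∈ closedBall v 1) (hQ : ∀ k, x ∉ Q k) {i j : Fin 6} (hi : i ∈ T x) (hj : j ∈ T x)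
    (hag : AgAt T Z f δ₀ x i j) (hl : lamT T Z f δ₀ i x = Lk N i) :
    lamT T Z f δ₀ j x = Lk N j := by
  obtain ⟨hij, hag⟩ := hag
  have hxc : dist x c ≤ R - 1 := by
    have := dist_triangle x v c
    have := mem_closedBall.1 hx
    linarith
  refine lamT_eq_Lk fun b d hb hdd hbd => ?_
  refine hN.prop (i := i) (j := j) (L := lamT T Z f δ₀ j x) hij (fun a b => lamT_symm j x a b)
    (fun a => lamT_diag j x a) (fun b => lamT_self j x b)
    (fun b hb => D.euler hxc hj hb) (fun b hb1 hb2 => ?_) (fun a b c d hn h1 => ?_) b d hbd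
    hb.symm hdd.symm
  · rw [← hag b hb1.symm hb2.symm, hl, Lk_eq hij hb1.symm hb2.symm]
  · by_contra h2
    have hn' := hn
    simp only [List.nodup_cons, List.mem_cons, List.not_mem_nil, or_false, not_or,
      List.nodup_nil, and_true, not_false_eq_true] at hn'
    refine G.r1 x hx hQ i j c d a b (by
      simp only [List.nodup_cons, List.mem_cons, List.not_mem_nil, or_false, not_or,
        List.nodup_nil, and_true, not_false_eq_true]
      tauto) hi hj ?_ (by rw [h1]; decide)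
    rw [hl, Lk_eq (by tauto) (by tauto) (by tauto)]
    exact h2

/-- **all colours of a point outside the polygons** -/
theorem steps (G : PolA T Z f δ₀ v Q I Nk) (hvc : dist v c ≤ R - 2) {N : Ch} (hN : RPN N) {x : ℂ}
    (hx : x ∈ closedBall v 1) (hQ : ∀ k, x ∉ Q k) {i j : Fin 6} (hi : i ∈ T x) (hj : j ∈ T x)
    (hl : lamT T Z f δ₀ i x = Lk N i) : lamT T Z f δ₀ j x = Lk N j := by
  have key : ∀ i ∈ T x, ∀ j ∈ T x, i ≠ j → ¬ Dg T x i j → lamT T Z f δ₀ i x = Lk N i →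
      lamT T Z f δ₀ j x = Lk N j := by
    intro i hi j hj hij hd hl
    rcases G.agr x hx hQ i hi j hj hij hd with h | ⟨k, hk, h1, h2⟩
    · exact G.step D hvc hN hx hQ hi hj h hl
    · exact G.step D hvc hN hx hQ hk hj h2 (G.step D hvc hN hx hQ hi hk h1 hl)
  by_cases hij : i = j
  · rwa [← hij]
  by_cases hd : Dg T x i j
  · obtain ⟨k, hk, hk1, hk2⟩ : ∃ k ∈ T x, k ≠ i ∧ k ≠ j := by
      by_contra hcon
      push Not at hcon
      have h1 : T x ⊆ {i, j} := fun k hk => by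
        by_cases hki : k = i
        · exact Or.inl hki
        · exact Or.inr (hcon k hk hki)
      have h2 := Set.ncard_le_ncard h1 (Set.toFinite _)
      have h3 := hd.ncard780
      have h4 : ({i, j} : Set (Fin 6)).ncard ≤ 2 := (Set.ncard_insert_le _ _).trans (by simp)
      omega
    obtain ⟨h1, h2⟩ := hd.not780 D.df.irr hij hk1 hk2
    exact key k hk j hj hk2 (fun h => h2 h.symm780) (key i hi k hk hk1.symm h1 hl)
  · exact key i hi j hj hij hd hl

/-- the property is locally constant -/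
theorem gd_loc (G : PolA T Z f δ₀ v Q I Nk) (hvc : dist v c ≤ R - 2) {N : Ch} (hN : RPN N) {x : ℂ}
    (hx : x ∈ closedBall v 1) : ∀ᶠ y in 𝓝 x, y ∈ closedBall v 1 →
      (Gd T Z f δ₀ Q I Nk N y ↔ Gd T Z f δ₀ Q I Nk N x) := by
  have hxc : dist x c ≤ R - 1 := by
    have := dist_triangle x v c
    have := mem_closedBall.1 hx
    linarith
  have hloc : ∀ᶠ y in 𝓝 x, ∀ i, i ∈ T y → i ∈ T x → lamT T Z f δ₀ i y = lamT T Z f δ₀ i x := by
    rw [eventually_all]
    intro i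
    by_cases hi : i ∈ T x
    · filter_upwards [D.loc hxc hi] with y hy h1 _
      exact hy h1
    · exact Eventually.of_forall fun y _ h => absurd h hi
  by_cases hQ : ∃ k, x ∈ Q k
  · obtain ⟨k, hk⟩ := hQ
    filter_upwards [G.lf x hx, G.op x hx k hk, D.df.irr.nhd x, hloc] with y h1 h2 h3 h4 hyv
    rw [G.gd_iff hx hk]
    by_cases hyQ : ∃ l, y ∈ Q l
    · obtain ⟨l, hl⟩ := hyQ
      rw [G.gd_iff hyv hl, G.dis' hx hk (h1 l hl)]
    · push Not at hyQ
      have hIk : I k ∉ T y := fun h => hyQ k (h2 h)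
      have hst : ∀ i ∈ T y, lamT T Z f δ₀ i y = Lk (Nk k) i := fun i hi => by
        have hik : i ≠ I k := fun h => hIk (h ▸ hi)
        rw [h4 i hi (h3 hi), G.st' hx hk (h3 hi) hik]
      constructor
      · rintro ⟨h5, -⟩
        obtain ⟨i, hi⟩ := D.df.irr.ne y
        refine Lk_inj (G.rpn k) hN (i := i) ?_
        rw [← hst i hi]
        exact h5 i hi fun l hl => absurd hl (hyQ l)
      · intro h5
        refine ⟨fun i hi _ => ?_, fun l hl => absurd hl (hyQ l)⟩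
        rw [hst i hi, h5]
  · push Not at hQ
    filter_upwards [G.lf x hx, D.df.irr.nhd x, hloc] with y h1 h3 h4 hyv
    have hyQ : ∀ l, y ∉ Q l := fun l hl => hQ l (h1 l hl)
    constructor
    · rintro ⟨h5, -⟩
      obtain ⟨i, hi⟩ := D.df.irr.ne y
      have h6 : lamT T Z f δ₀ i x = Lk N i := by
        rw [← h4 i hi (h3 hi)]
        exact h5 i hi fun l hl => absurd hl (hyQ l)
      exact ⟨fun j hj _ => G.steps D hvc hN hx hQ (h3 hi) hj h6, fun l hl => absurd hl (hQ l)⟩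
    · rintro ⟨h5, -⟩
      exact ⟨fun i hi _ => by
        rw [h4 i hi (h3 hi)]
        exact h5 i (h3 hi) fun l hl => absurd hl (hQ l), fun l hl => absurd hl (hyQ l)⟩

/-- **the whole disc** -/
theorem gd_all (G : PolA T Z f δ₀ v Q I Nk) (hvc : dist v c ≤ R - 2) {N : Ch} (hN : RPN N)
    {x y : ℂ} (hx : x ∈ closedBall v 1) (hy : y ∈ closedBall v 1)
    (h : Gd T Z f δ₀ Q I Nk N x) : Gd T Z f δ₀ Q I Nk N y :=
  (clopen780 (convex_closedBall v 1).isPreconnected (fun _ hz => G.gd_loc D hvc hN hz) hx hy).1 h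

/-- **Every state of every point outside the polygons is a link of one plane.** -/
theorem all (G : PolA T Z f δ₀ v Q I Nk) (hvc : dist v c ≤ R - 2) {k₀ : κ} {x₀ : ℂ}
    (hx₀ : x₀ ∈ closedBall v 1) (hk₀ : x₀ ∈ Q k₀) {x : ℂ} (hx : x ∈ closedBall v 1) :
    (∀ i ∈ T x, (∀ k, x ∈ Q k → i ≠ I k) → lamT T Z f δ₀ i x = Lk (Nk k₀) i) ∧
      ∀ k, x ∈ Q k → Lk (Nk k) = Lk (Nk k₀) :=
  G.gd_all D hvc (G.rpn k₀) hx₀ hx ((G.gd_iff hx₀ hk₀).2 rfl)

/-- **One three coloured point with odd ring**: its palette is not a face of the plane, the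
complement is. -/
theorem at_three (G : PolA T Z f δ₀ v Q I Nk) (hvc : dist v c ≤ R - 2) (P : PtD T Z f c R v)
    (hvQ : ∀ k, v ∈ Q k → I k ∉ T v) {k₀ : κ} {x₀ : ℂ} (hx₀ : x₀ ∈ closedBall v 1)
    (hk₀ : x₀ ∈ Q k₀) {a b g d e h : Fin 6} (hn : [a, b, g, d, e, h].Nodup)
    (hT : T v = {a, b, g}) : Nk k₀ {a, b, g} = 0 ∧ Nk k₀ {d, e, h} = 1 := by
  have hv : v ∈ closedBall v 1 := mem_closedBall_self zero_le_one
  have h1 := (G.all D hvc hx₀ hk₀ hv).1
  have h2 : ∀ i ∈ T v, lamT T Z f δ₀ i v = Lk (Nk k₀) i := fun i hi =>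
    h1 i hi fun k hk hik => hvQ k hk (hik ▸ hi)
  have hn' := hn
  simp only [List.nodup_cons, List.mem_cons, List.not_mem_nil, or_false, not_or,
    List.nodup_nil, and_true, not_false_eq_true] at hn'
  have hw := (PtD.lamB D P).wind v (mem_singleton v) a b g (by tauto) (by tauto) (by tauto) hT d e
    (by tauto) (by rw [hT]; simp only [mem_insert_iff, mem_singleton_iff, not_or]; tauto)
    (by rw [hT]; simp only [mem_insert_iff, mem_singleton_iff, not_or]; tauto)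
  rw [h2 a (by rw [hT]; simp), h2 b (by rw [hT]; simp), h2 g (by rw [hT]; simp),
    Lk_eq (by tauto) (by tauto) (by tauto), Lk_eq (by tauto) (by tauto) (by tauto),
    Lk_eq (by tauto) (by tauto) (by tauto)] at hw
  exact (G.rpn k₀).wind hn hw

/-- **The end of state A** -/
theorem stateA_false (G : PolA T Z f δ₀ v Q I Nk) (hvc : dist v c ≤ R - 2)
    (P : PtD T Z f c R v) (hvQ : ∀ k, v ∈ Q k → I k ∉ T v) {k₀ : κ} {x₀ : ℂ}
    (hx₀ : x₀ ∈ closedBall v 1) (hk₀ : x₀ ∈ Q k₀) {a b g d e h : Fin 6}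
    (hn : [a, b, g, d, e, h].Nodup) (hT : T v = {a, b, g})
    (hN : Nk k₀ {a, b, g} = 1 ∨ Nk k₀ {d, e, h} = 0) : False := by
  obtain ⟨h1, h2⟩ := G.at_three D hvc P hvQ hx₀ hk₀ hn hT
  rcases hN with h3 | h3
  · rw [h1] at h3
    exact absurd h3 (by decide)
  · rw [h2] at h3
    exact absurd h3 (by decide)

end PolA

end Vale.Agent.P032.Six
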