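import Mathlib

/-!
# P032, X: the class law

`Q : ℝ → Finset (Fin 3)` periodic with period six, upper semicontinuous, values neither empty nor
everything, `Q t` and `Q (t + 1)` incomparable except for `t = t₀` modulo six.  The sum of the six
differences of the codes (each `2`, `3` or `4`) is locally constant; at a swap it jumps by six:
`Cl.false`.
-/

open Set Filter Topology

noncomputable section

namespace Vale.Agent.P032.H780

/-- the code of a proper set of letters -/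
def code (P : Finset (Fin 3)) : ℕ :=
  if P = {0} then 0 else if P = {0, 1} then 1 else if P = {1} then 2 else
    if P = {1, 2} then 3 else if P = {2} then 4 else if P = {0, 2} then 5 else 0

/-- the difference of the codes, `0, .., 5` -/
def dd (P P' : Finset (Fin 3)) : ℤ := ((code P' + 6 - code P) % 6 : ℕ)

/-- the small change from `P` to a subset -/
def ee (P Q : Finset (Fin 3)) : ℤ :=
  if (code Q + 6 - code P) % 6 = 5 then -1 else ((code Q + 6 - code P) % 6 : ℕ)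

private lemma tele0 : ∀ P P' Q Q' : Finset (Fin 3), P ≠ ∅ → P ≠ Finset.univ → P' ≠ ∅ →
    P' ≠ Finset.univ → Q ≠ ∅ → Q' ≠ ∅ → ¬ P ⊆ P' → ¬ P' ⊆ P → ¬ Q ⊆ Q' → ¬ Q' ⊆ Q → Q ⊆ P →
    Q' ⊆ P' → dd Q Q' = dd P P' + ee P' Q' - ee P Q := by
  decide +kernel

private lemma two0 : ∀ (P : Finset (Fin 3)) (a b : Fin 3), a ≠ b → {a} ⊆ P → {b} ⊆ P →
    P ≠ Finset.univ → P = {a, b} := by
  decide +kernel

private lemma one0 : ∀ (P : Finset (Fin 3)) (a b : Fin 3), P ⊆ {a, b} → P ≠ ∅ → ¬ P ⊆ {a} →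
    ¬ {a} ⊆ P → P = {b} := by
  decide +kernel

private lemma jump0 : ∀ a b : Fin 3, a ≠ b →
    dd {a} {b} + ee {a, b} {a} - ee {a, b} {b} ≠ dd {b} {a} + ee {a, b} {b} - ee {a, b} {a} := by
  decide +kernel

/-- the column of the letters of a circle, comparable neighbours only at `t₀` modulo six -/
structure Cl (Q : ℝ → Finset (Fin 3)) (t₀ : ℝ) : Prop where
  per : ∀ t, Q (t + 6) = Q t
  ne : ∀ t, Q t ≠ ∅
  nu : ∀ t, Q t ≠ Finset.univ
  usc : ∀ t, ∀ᶠ s in 𝓝 t, Q s ⊆ Q t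
  inc : ∀ t, (∀ n : ℤ, t ≠ t₀ + 6 * n) → ¬ Q t ⊆ Q (t + 1) ∧ ¬ Q (t + 1) ⊆ Q t

/-- the sum of the six differences -/
def SS (Q : ℝ → Finset (Fin 3)) (t : ℝ) : ℤ :=
  dd (Q t) (Q (t + 1)) + dd (Q (t + 1)) (Q (t + 2)) + dd (Q (t + 2)) (Q (t + 3)) +
    dd (Q (t + 3)) (Q (t + 4)) + dd (Q (t + 4)) (Q (t + 5)) + dd (Q (t + 5)) (Q (t + 6))

namespace Cl

variable {Q : ℝ → Finset (Fin 3)} {t₀ : ℝ}

theorem usc' (C : Cl Q t₀) (t k : ℝ) : ∀ᶠ s in 𝓝 t, Q (s + k) ⊆ Q (t + k) := by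
  have h1 : Tendsto (fun s : ℝ => s + k) (𝓝 t) (𝓝 (t + k)) :=
    (continuous_id.add continuous_const).tendsto t
  exact h1.eventually (C.usc (t + k))

theorem shift (C : Cl Q t₀) (t : ℝ) : SS Q (t + 1) = SS Q t := by
  unfold SS
  have e1 : t + 1 + 1 = t + 2 := by ring
  have e2 : t + 1 + 2 = t + 3 := by ring
  have e3 : t + 1 + 3 = t + 4 := by ring
  have e4 : t + 1 + 4 = t + 5 := by ring
  have e5 : t + 1 + 5 = t + 6 := by ring
  rw [e1, e2, e3, e4, e5, C.per (t + 1), C.per t]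
  ring

/-- one difference -/
theorem term (C : Cl Q t₀) {s t : ℝ} (hs : ∀ n : ℤ, s ≠ t₀ + 6 * n)
    (ht : ∀ n : ℤ, t ≠ t₀ + 6 * n) (h0 : Q s ⊆ Q t) (h1 : Q (s + 1) ⊆ Q (t + 1)) :
    dd (Q s) (Q (s + 1)) = dd (Q t) (Q (t + 1)) + ee (Q (t + 1)) (Q (s + 1)) - ee (Q t) (Q s) :=
  tele0 _ _ _ _ (C.ne _) (C.nu _) (C.ne _) (C.nu _) (C.ne _) (C.ne _) (C.inc t ht).1
    (C.inc t ht).2 (C.inc s hs).1 (C.inc s hs).2 h0 h1

/-- the five differences which do not touch the first step -/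
theorem five (C : Cl Q t₀) {s t : ℝ}
    (hs : ∀ k : ℕ, 1 ≤ k → k ≤ 5 → ∀ n : ℤ, s + k ≠ t₀ + 6 * n)
    (ht : ∀ k : ℕ, 1 ≤ k → k ≤ 5 → ∀ n : ℤ, t + k ≠ t₀ + 6 * n)
    (hsub : ∀ k : ℕ, k ≤ 6 → Q (s + k) ⊆ Q (t + k)) :
    SS Q s - dd (Q s) (Q (s + 1)) = SS Q t - dd (Q t) (Q (t + 1)) + ee (Q t) (Q s) -
      ee (Q (t + 1)) (Q (s + 1)) := by
  have key : ∀ k : ℕ, 1 ≤ k → k ≤ 5 → dd (Q (s + k)) (Q (s + k + 1)) =
      dd (Q (t + k)) (Q (t + k + 1)) + ee (Q (t + k + 1)) (Q (s + k + 1)) -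
        ee (Q (t + k)) (Q (s + k)) := by
    intro k hk1 hk5
    refine C.term (hs k hk1 hk5) (ht k hk1 hk5) (hsub k (by omega)) ?_
    have := hsub (k + 1) (by omega)
    push_cast at this
    rwa [← add_assoc, ← add_assoc] at this
  have k1 := key 1 le_rfl (by norm_num)
  have k2 := key 2 (by norm_num) (by norm_num)
  have k3 := key 3 (by norm_num) (by norm_num)
  have k4 := key 4 (by norm_num) (by norm_num)
  have k5 := key 5 (by norm_num) (by norm_num)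
  have a1 : ∀ x : ℝ, x + ((1 : ℕ) : ℝ) = x + 1 := fun x => by norm_num
  have a2 : ∀ x : ℝ, x + ((2 : ℕ) : ℝ) = x + 2 := fun x => by norm_num
  have a3 : ∀ x : ℝ, x + ((3 : ℕ) : ℝ) = x + 3 := fun x => by norm_num
  have a4 : ∀ x : ℝ, x + ((4 : ℕ) : ℝ) = x + 4 := fun x => by norm_num
  have a5 : ∀ x : ℝ, x + ((5 : ℕ) : ℝ) = x + 5 := fun x => by norm_num
  have b1 : ∀ x : ℝ, x + 1 + 1 = x + 2 := fun x => by ring
  have b2 : ∀ x : ℝ, x + 2 + 1 = x + 3 := fun x => by ring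
  have b3 : ∀ x : ℝ, x + 3 + 1 = x + 4 := fun x => by ring
  have b4 : ∀ x : ℝ, x + 4 + 1 = x + 5 := fun x => by ring
  have b5 : ∀ x : ℝ, x + 5 + 1 = x + 6 := fun x => by ring
  simp only [a1, b1] at k1
  simp only [a2, b2] at k2
  simp only [a3, b3] at k3
  simp only [a4, b4] at k4
  simp only [a5, b5, C.per] at k5
  unfold SS
  rw [C.per, C.per]
  linarith

theorem notInt {s : ℝ} (h0 : t₀ < s) (h1 : s < t₀ + 1) (k : ℕ) (n : ℤ) :
    s + k ≠ t₀ + 6 * n := by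
  intro h
  have e : ((6 * n - k : ℤ) : ℝ) = s - t₀ := by push_cast; linarith
  have h2 : (0 : ℝ) < ((6 * n - k : ℤ) : ℝ) := by rw [e]; linarith
  have h3 : ((6 * n - k : ℤ) : ℝ) < 1 := by rw [e]; linarith
  have h4 : (0 : ℤ) < 6 * n - k := by exact_mod_cast h2
  have h5 : (6 * n - k : ℤ) < 1 := by exact_mod_cast h3
  omega

theorem notInt' {s : ℝ} (h0 : s < t₀) (h1 : t₀ - 1 < s) (k : ℕ) (n : ℤ) :
    s + k ≠ t₀ + 6 * n := by
  intro h
  have e : ((6 * n - k : ℤ) : ℝ) = s - t₀ := by push_cast; linarith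
  have h2 : ((6 * n - k : ℤ) : ℝ) < 0 := by rw [e]; linarith
  have h3 : (-1 : ℝ) < ((6 * n - k : ℤ) : ℝ) := by rw [e]; linarith
  have h4 : (6 * n - k : ℤ) < 0 := by exact_mod_cast h2
  have h5 : (-1 : ℤ) < 6 * n - k := by exact_mod_cast h3
  omega

/-- the sum is constant between two times of the exceptional step -/
theorem const (C : Cl Q t₀) {s t : ℝ} (hs : s ∈ Ioo t₀ (t₀ + 1)) (ht : t ∈ Ioo t₀ (t₀ + 1)) :
    SS Q s = SS Q t := by
  refine (isPreconnected_Ioo (a := t₀) (b := t₀ + 1)).constant (f := SS Q) (fun u hu => ?_) hs ht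
  refine tendsto_const_nhds.congr' ?_
  have hall : ∀ᶠ w in 𝓝 u, ∀ k : Fin 7, Q (w + (k : ℕ)) ⊆ Q (u + (k : ℕ)) := by
    rw [eventually_all]
    exact fun k => C.usc' u _
  filter_upwards [mem_nhdsWithin_of_mem_nhds hall, self_mem_nhdsWithin] with w hw hwI
  have h5 := C.five (s := w) (t := u) (fun k _ _ n => notInt hwI.1 hwI.2 k n)
    (fun k _ _ n => notInt hu.1 hu.2 k n) (fun k hk => hw ⟨k, by omega⟩)
  have h0 := hw 0
  have h1 := hw 1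
  have e0 : ∀ x : ℝ, x + (((0 : Fin 7) : ℕ) : ℝ) = x := fun x => by norm_num
  have e1 : ∀ x : ℝ, x + (((1 : Fin 7) : ℕ) : ℝ) = x + 1 := fun x => by norm_num
  rw [e0, e0] at h0
  rw [e1, e1] at h1
  have h6 := C.term (s := w) (t := u)
    (fun n => by simpa using notInt hwI.1 hwI.2 0 n)
    (fun n => by simpa using notInt hu.1 hu.2 0 n) h0 h1
  linarith

/-- **The class law**: no single swap -/
theorem false (C : Cl Q t₀) {a b : Fin 3} (hab : a ≠ b)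
    (hr : ∀ᶠ t in 𝓝[>] t₀, Q t = {a} ∧ Q (t + 1) = {b})
    (hl : ∀ᶠ t in 𝓝[<] t₀, Q t = {b} ∧ Q (t + 1) = {a}) : False := by
  have hall : ∀ᶠ w in 𝓝 t₀, ∀ k : Fin 7, Q (w + (k : ℕ)) ⊆ Q (t₀ + (k : ℕ)) := by
    rw [eventually_all]
    exact fun k => C.usc' t₀ _
  have hallR : ∀ᶠ w in 𝓝[>] t₀, ∀ k : Fin 7, Q (w + (k : ℕ)) ⊆ Q (t₀ + (k : ℕ)) :=
    mem_nhdsWithin_of_mem_nhds hall
  have hallL : ∀ᶠ w in 𝓝[<] t₀, ∀ k : Fin 7, Q (w + (k : ℕ)) ⊆ Q (t₀ + (k : ℕ)) :=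
    mem_nhdsWithin_of_mem_nhds hall
  obtain ⟨r, ⟨hr1, hr2⟩, hr3, hr4⟩ := (hr.and (hallR.and
    (Ioo_mem_nhdsGT (show t₀ < t₀ + 1 by linarith)))).exists
  obtain ⟨s, ⟨hs1, hs2⟩, hs3, hs4⟩ := (hl.and (hallL.and
    (Ioo_mem_nhdsLT (show t₀ - 1 < t₀ by linarith)))).exists
  have hs3' : ∀ k : Fin 7, Q (s + (k : ℕ)) ⊆ Q (t₀ + (k : ℕ)) := hs3
  have hr3' : ∀ k : Fin 7, Q (r + (k : ℕ)) ⊆ Q (t₀ + (k : ℕ)) := hr3
  have hst : ∀ k : ℕ, 1 ≤ k → k ≤ 5 → ∀ n : ℤ, t₀ + k ≠ t₀ + 6 * n := by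
    intro k h1 h2 n h
    have h3 : (k : ℝ) = 6 * n := by linarith
    have h4 : (k : ℤ) = 6 * n := by exact_mod_cast h3
    omega
  have f1 := C.five (s := r) (t := t₀) (fun k _ _ n => notInt hr4.1 hr4.2 k n) hst
    (fun k hk => hr3' ⟨k, by omega⟩)
  have f2 := C.five (s := s) (t := t₀) (fun k _ _ n => notInt' hs4.2 hs4.1 k n) hst
    (fun k hk => hs3' ⟨k, by omega⟩)
  have e0 : ∀ x : ℝ, x + (((0 : Fin 7) : ℕ) : ℝ) = x := fun x => by norm_num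
  have e1 : ∀ x : ℝ, x + (((1 : Fin 7) : ℕ) : ℝ) = x + 1 := fun x => by norm_num
  have r0 := hr3' 0
  have r1 := hr3' 1
  have s0 := hs3' 0
  have s1 := hs3' 1
  rw [e0, e0] at r0 s0
  rw [e1, e1] at r1 s1
  rw [hr1] at r0
  rw [hr2] at r1
  rw [hs1] at s0
  rw [hs2] at s1
  have p0 : Q t₀ = {a, b} := two0 _ a b hab r0 s0 (C.nu _)
  have p1 : Q (t₀ + 1) = {a, b} := two0 _ a b hab s1 r1 (C.nu _)
  have hc : SS Q r = SS Q s := by
    rw [← C.shift s]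
    exact C.const hr4 ⟨by linarith [hs4.1], by linarith [hs4.2]⟩
  rw [hr1, hr2, p0, p1] at f1
  rw [hs1, hs2, p0, p1] at f2
  exact jump0 a b hab (by linarith)

/-- the swap vertex at `t₀`, the apex at `t₀ + 1` -/
theorem false_left (C : Cl Q t₀) {a b : Fin 3} (hab : a ≠ b) (hr : ∀ᶠ t in 𝓝[>] t₀, Q t = {a})
    (hl : ∀ᶠ t in 𝓝[<] t₀, Q t = {b}) (h1 : Q (t₀ + 1) ⊆ {a, b}) : False := by
  have hu := C.usc' t₀ 1
  refine C.false hab ?_ ?_
  · filter_upwards [hr, mem_nhdsWithin_of_mem_nhds hu,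
      Ioo_mem_nhdsGT (show t₀ < t₀ + 1 by linarith)] with t h2 h3 h4
    have h5 := C.inc t fun n => by simpa using notInt h4.1 h4.2 0 n
    rw [h2] at h5
    exact ⟨h2, one0 _ a b (h3.trans h1) (C.ne _) h5.2 h5.1⟩
  · filter_upwards [hl, mem_nhdsWithin_of_mem_nhds hu,
      Ioo_mem_nhdsLT (show t₀ - 1 < t₀ by linarith)] with t h2 h3 h4
    have h5 := C.inc t fun n => by simpa using notInt' h4.2 h4.1 0 n
    rw [h2] at h5
    exact ⟨h2, one0 _ b a ((h3.trans h1).trans (by rw [Finset.pair_comm])) (C.ne _) h5.2 h5.1⟩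

/-- the swap vertex at `t₀ + 1`, the apex at `t₀` -/
theorem false_right (C : Cl Q t₀) {a b : Fin 3} (hab : a ≠ b)
    (hr : ∀ᶠ t in 𝓝[>] t₀, Q (t + 1) = {b}) (hl : ∀ᶠ t in 𝓝[<] t₀, Q (t + 1) = {a})
    (h1 : Q t₀ ⊆ {a, b}) : False := by
  have hu := C.usc t₀
  refine C.false hab ?_ ?_
  · filter_upwards [hr, mem_nhdsWithin_of_mem_nhds hu,
      Ioo_mem_nhdsGT (show t₀ < t₀ + 1 by linarith)] with t h2 h3 h4
    have h5 := C.inc t fun n => by simpa using notInt h4.1 h4.2 0 n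
    rw [h2] at h5
    exact ⟨one0 _ b a ((h3.trans h1).trans (by rw [Finset.pair_comm])) (C.ne _) h5.1 h5.2, h2⟩
  · filter_upwards [hl, mem_nhdsWithin_of_mem_nhds hu,
      Ioo_mem_nhdsLT (show t₀ - 1 < t₀ by linarith)] with t h2 h3 h4
    have h5 := C.inc t fun n => by simpa using notInt' h4.2 h4.1 0 n
    rw [h2] at h5
    exact ⟨one0 _ a b (h3.trans h1) (C.ne _) h5.1 h5.2, h2⟩

end Cl

end Vale.Agent.P032.H780
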