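import Vale.Agent.P032.H780.TipF
import Vale.Agent.P032.H538.NBad
import Vale.Agent.P032.H180.FullD

/-!
# P032, X, state A: the record at the full times

`FullD780` : the neighbours of a full two-pair point.  `fullW_of780` : the record `FullW780` from it.
-/

open Set Filter Topology Metric

noncomputable section

namespace Vale.Agent.P032.Six

open Vale.Agent.P032.S5 Vale.Agent.P032.Carr Vale.Agent.P032.S5.H767 Vale.Agent.P032.H961
  Vale.Agent.P032.H538
open Vale.Agent.P032.H180 (Qt Qt_of_ne Qt_of_eq)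
open Vale.Agent.P032.S5.H180 (Qx rx Qx_univ Bs)

variable {U : Fin 6 → Set ℂ} {T : ℂ → Set (Fin 6)} {f : ℂ → Set (Fin 6)} {Z : Set ℂ} {c : ℂ}
  {R δ₀ : ℝ} {x y z : ℂ}

/-- the neighbours of a full two-pair point -/
def FullD780 (U : Fin 6 → Set ℂ) (T : ℂ → Set (Fin 6)) (f : ℂ → Set (Fin 6)) : Prop :=
  ∀ {Z : Set ℂ} {c : ℂ} {R δ₀ : ℝ}, DSt U T Z f c R δ₀ → ∀ {x y z : ℂ} {a b p q : Fin 6},
    (T x).ncard = 3 → (∀ w, dist w x = 1 → (T x)ᶜ ⊆ T w → 4 ≤ (T w).ncard ∧ f w ⊆ (T x)ᶜ) →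
    DPt T z a b p q → dist z x = 1 → dist y x = 1 → dist y z = 1 → (T x)ᶜ ⊆ T z →
    ¬ (T x)ᶜ ⊆ T y ∧ ((f z ⊆ T y ∧ T y \ T x ⊆ f z) ∨ SwV180 T f x y z)

variable (D : DSt U T Z f c R δ₀) (W : StW T f) (h3 : (T x).ncard = 3)
  (hQ : ∀ w, dist w x = 1 → (T x)ᶜ ⊆ T w → 4 ≤ (T w).ncard ∧ f w ⊆ (T x)ᶜ)
  (FD : FullD780 U T f) (B : H57.RC T Z f δ₀ x (T x))

include D W h3 hQ FD B in
/-- a neighbour of a full point which carries its apex is full or a swap vertex -/
theorem full_nb780 (hz : dist z x = 1) (hy : dist y x = 1) (hyz : dist y z = 1)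
    (hs : (T x)ᶜ ⊆ T z) (hn : ¬ (T x)ᶜ ⊆ T y) (hm : hp T f (T x) z ∈ T y) :
    SwV180 T f x y z := by
  have h := D.df.irr
  obtain ⟨a1, a2, a3, a4⟩ := RC.apex538 B hz hs
  have bs : Bs U T x (T x) := ⟨h, h3, Subset.rfl, B.full, Or.inl rfl⟩
  rcases D.df.harm_or (hQ z hz hs).1 with ⟨A, hA⟩ | ⟨a, b, p, q, hD⟩
  · have hf := D.ch.harm z A hA
    have hAS : A ⊆ (T x)ᶜ := by rw [← hf]; exact (hQ z hz hs).2
    have key : T y \ T x ⊆ A → SwV180 T f x y z := fun h1 => by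
      have h2 := h1 ⟨hm, a3⟩
      rw [← hf] at h2
      exact absurd h2 a2
    rcases le_or_gt (T y).ncard 3 with h5 | h5
    · exact key (H57.nbrZ h h3 Subset.rfl B.full hy hz hyz h5 hA.h1 hs hAS hA.cardA hn).1
    · rcases D.df.harm_or h5 with ⟨A', hA'⟩ | ⟨a, b, p, q, hD⟩
      · refine key (bs.nbrZZ hz hy hyz hA hA' (D.df.ev_harm180 hA') hs hAS hn
          (fun h6 => DSt.hup W D.df y z A A' hA' hA hyz h6) fun E hE => ?_).1
        have := hE.card
        omega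
      · exact (W.sep hA hyz hD).elim
  · obtain ⟨-, ⟨-, h1⟩ | h1⟩ := FD D h3 hQ hD hz hy hyz hs
    · exact absurd (h1 ⟨hm, a3⟩) a2
    · exact h1

include D W h3 hQ FD B in
/-- two full neighbours have different apexes -/
theorem full_full780 (hz : dist z x = 1) (hy : dist y x = 1) (hyz : dist y z = 1)
    (hs : (T x)ᶜ ⊆ T z) (hs' : (T x)ᶜ ⊆ T y) : (∃ A, Six.Harm T z A) ∧ (∃ A, Six.Harm T y A) ∧
      hp T f (T x) z ≠ hp T f (T x) y := by
  have h := D.df.irr
  have hzy : dist z y = 1 := by rw [dist_comm]; exact hyz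
  have bs : Bs U T x (T x) := ⟨h, h3, Subset.rfl, B.full, Or.inl rfl⟩
  rcases D.df.harm_or (hQ z hz hs).1 with ⟨A, hA⟩ | ⟨a, b, p, q, hD⟩
  swap
  · exact absurd hs' (FD D h3 hQ hD hz hy hyz hs).1
  rcases D.df.harm_or (hQ y hy hs').1 with ⟨A', hA'⟩ | ⟨a, b, p, q, hD⟩
  swap
  · exact absurd hs (FD D h3 hQ hD hy hz hzy hs').1
  refine ⟨⟨A, hA⟩, ⟨A', hA'⟩, fun he => ?_⟩
  obtain ⟨a1, a2, a3, a4⟩ := RC.apex538 B hz hs
  obtain ⟨b1, b2, b3, b4⟩ := RC.apex538 B hy hs'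
  have hf := D.ch.harm z A hA
  have hf' := D.ch.harm y A' hA'
  have hAS : A ⊆ (T x)ᶜ := by rw [← hf]; exact (hQ z hz hs).2
  have hAS' : A' ⊆ (T x)ᶜ := by rw [← hf']; exact (hQ y hy hs').2
  refine bs.ccZZ hz hy hyz hA hA' hs hs' hAS'
    (fun h6 => DSt.hup W D.df z y A' A hA hA' hzy h6) hAS ?_
  rw [← hf, ← hf']
  apply Subset.antisymm
  · intro i hi
    rcases b4 i ((hQ z hz hs).2 hi) with h5 | h5
    · rw [← he] at h5
      exact absurd (h5 ▸ hi) a2
    · exact h5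
  · intro i hi
    rcases a4 i ((hQ y hy hs').2 hi) with h5 | h5
    · rw [he] at h5
      exact absurd (h5 ▸ hi) b2
    · exact h5

include D W h3 hQ FD B in
/-- **Incomparability at a full time, or a swap** -/
theorem full_inc780 {col : Fin 3 → Fin 6} (hcol : ∀ i, i ∉ T x ↔ ∃ l, i = col l)
    (hinj : Function.Injective col) (t s : ℝ) (hts : dist (H180.pt x t) (H180.pt x s) = 1)
    (hfull : Qx T x col t = univ ∨ Qx T x col s = univ)
    (hsub : Qt (Qx T x col) (rx T f (T x) x col) t ⊆ Qt (Qx T x col) (rx T f (T x) x col) s) :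
    SwV180 T f x (H180.pt x t) (H180.pt x s) ∨ SwV180 T f x (H180.pt x s) (H180.pt x t) := by
  have hst : dist (H180.pt x s) (H180.pt x t) = 1 := by rw [dist_comm]; exact hts
  have d1 := H180.dist_pt x t
  have d2 := H180.dist_pt x s
  by_cases ht : Qx T x col t = univ
  · have ht' := (Qx_univ hcol).1 ht
    rw [Qt_of_eq ht] at hsub
    by_cases hs : Qx T x col s = univ
    · have hs' := (Qx_univ hcol).1 hs
      rw [Qt_of_eq hs] at hsub
      have h1 : rx T f (T x) x col t = rx T f (T x) x col s := hsub rfl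
      have h2 := (full_full780 D W h3 hQ FD B d1 d2 hst ht' hs').2.2
      rw [← rx_spec383 B hcol ht', ← rx_spec383 B hcol hs', h1] at h2
      exact absurd rfl h2
    · right
      rw [Qt_of_ne hs] at hsub
      have h1 : rx T f (T x) x col t ∈ Qx T x col s := hsub rfl
      refine full_nb780 D W h3 hQ FD B d1 d2 hst ht' (fun h2 => hs ((Qx_univ hcol).2 h2)) ?_
      rw [← rx_spec383 B hcol ht']
      exact h1
  · have hs := hfull.resolve_left ht
    have hs' := (Qx_univ hcol).1 hs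
    rw [Qt_of_eq hs, Qt_of_ne ht] at hsub
    left
    refine full_nb780 D W h3 hQ FD B d2 d1 hts hs' (fun h2 => ht ((Qx_univ hcol).2 h2)) ?_
    rw [← rx_spec383 B hcol hs']
    obtain ⟨l, hl⟩ := RC.ne538 B hcol t
    have h1 : l = rx T f (T x) x col s := hsub hl
    rw [← h1]
    exact hl

/-- **The record at every three coloured point** -/
theorem fullW_of780 (hN : NoComp T) (hw : QIW T NoI) (G : GaugeI758 T NoI f)
    (SA : ∀ V l name, ChI nxR802 T NoI V l name → ∀ j, l j = 2) (FD : FullD780 U T f) :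
    FullW780 U T f := by
  intro Z c R δ₀ D x hx h3 hap
  have W : StW T f := StW.of hw G SA
  have hQ : ∀ w, dist w x = 1 → (T x)ᶜ ⊆ T w → 4 ≤ (T w).ncard ∧ f w ⊆ (T x)ᶜ := by
    intro w hw hs
    have h1 := W.nof553 D hN h3 w (mem_closedBall.2 hw.le)
    unfold FcD at h1
    push Not at h1
    exact h1 hs
  have B : H57.RC T Z f δ₀ x (T x) := D.rc383 hx h3 hap hQ
  refine ⟨B, fun col hcol hinj => RC.hexw538 B hcol hinj,
    fun col hcol hinj t s hts hf hsub => full_inc780 D W h3 hQ FD B hcol hinj t s hts hf hsub,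
    fun col hcol hinj t h0 h1 => ?_⟩
  have hst : dist (H180.pt x (t + 1)) (H180.pt x t) = 1 := by
    rw [dist_comm]; exact S5.H180.dist_pt_succ x t
  obtain ⟨⟨A, hA⟩, ⟨A', hA'⟩, -⟩ := full_full780 D W h3 hQ FD B (H180.dist_pt x t)
    (H180.dist_pt x (t + 1)) hst ((Qx_univ hcol).1 h0) ((Qx_univ hcol).1 h1)
  refine D.nbad538 B hcol hinj h0 h1 ⟨A, hA⟩ ⟨A', hA'⟩ ?_
  have inc : ∀ t s : ℝ, dist (H180.pt x t) (H180.pt x s) = 1 →
      Qt (Qx T x col) (rx T f (T x) x col) t ⊆ Qt (Qx T x col) (rx T f (T x) x col) s →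
      SwV180 T f x (H180.pt x t) (H180.pt x s) ∨ SwV180 T f x (H180.pt x s) (H180.pt x t) := by
    intro t s hts hsub
    by_cases h1 : Qx T x col t = univ
    · exact full_inc780 D W h3 hQ FD B hcol hinj t s hts (Or.inl h1) hsub
    by_cases h2 : Qx T x col s = univ
    · exact full_inc780 D W h3 hQ FD B hcol hinj t s hts (Or.inr h2) hsub
    rw [Qt_of_ne h1, Qt_of_ne h2] at hsub
    refine viol180 D hw G SA h3 hap (H180.dist_pt x t) (H180.dist_pt x s) hts
      (fun h => h1 ((Qx_univ hcol).2 h)) (fun h => h2 ((Qx_univ hcol).2 h)) ?_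
    rintro i ⟨hi, hix⟩
    obtain ⟨l, rfl⟩ := (hcol i).1 hix
    exact hsub hi
  have c1 : Tendsto (H180.pt x) (𝓝 t) (𝓝 (H180.pt x t)) :=
    (H180.continuous_pt x).continuousAt
  have c2 : Tendsto (fun s : ℝ => H180.pt x (s + 1)) (𝓝 t) (𝓝 (H180.pt x (t + 1))) := by
    have : Continuous fun s : ℝ => H180.pt x (s + 1) :=
      (H180.continuous_pt x).comp (continuous_id.add continuous_const)
    exact this.tendsto t
  have nsw : ∀ {V y : ℂ}, (4 ≤ (T V).ncard → ∃ A', Six.Harm T V A') → ¬ SwV180 T f x V y := by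
    rintro V y hV ⟨a, b, m, n, hD, -⟩
    obtain ⟨A', hA'⟩ := hV (card4 hD).ge
    exact not_harm_of_dpt hA' hD
  filter_upwards [c1.eventually (D.df.ev_harm180 hA), c2.eventually (D.df.ev_harm180 hA')]
    with s k1 k2
  refine ⟨fun hsub => ?_, fun hsub => ?_⟩
  · rcases inc _ _ (S5.H180.dist_pt_succ x s) hsub with h5 | h5
    · exact nsw k1 h5
    · exact nsw k2 h5
  · rcases inc _ _ (by rw [dist_comm]; exact S5.H180.dist_pt_succ x s) hsub with h5 | h5
    · exact nsw k2 h5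
    · exact nsw k1 h5

/-- **The odd ring at the tip** -/
theorem ringV_ofD780 (h : DF U T) (hN : NoComp T) (hw : QIW T NoI) (G : GaugeI758 T NoI f)
    (SA : ∀ V l name, ChI nxR802 T NoI V l name → ∀ j, l j = 2) (FD : FullD780 U T f) :
    RingV U T f :=
  ringV_of780 h hw G SA (fullW_of780 hN hw G SA FD)

theorem fullD780 (hw : QIW T NoI) (G : GaugeI758 T NoI f)
    (SA : ∀ V l name, ChI nxR802 T NoI V l name → ∀ j, l j = 2) : FullD780 U T f :=
  fun D _ _ _ _ _ _ _ h3 hQ hD hz hy hyz hs => fullD180 D hw G SA h3 hQ hD hz hy hyz hs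

/-- **The odd ring at the tip**, all-STAY world without invisible points -/
theorem ringV780 (h : DF U T) (hN : NoComp T) (hw : QIW T NoI) (G : GaugeI758 T NoI f)
    (SA : ∀ V l name, ChI nxR802 T NoI V l name → ∀ j, l j = 2) : RingV U T f :=
  ringV_ofD780 h hN hw G SA (fullD780 hw G SA)

end Vale.Agent.P032.Six
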