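import Vale.Agent.P032.H961.QI

/-!
# P032, X, state A: the tip over a side of a polygon

`V0`, `V1`, `V2` consecutive vertices of a chain: `V0`, `V2` are the ends of the arc of `V1`.
`x = V0 + V2 - V1` is the other common point of `S(V0)`, `S(V2)`.

* `tip_far` : `x` is at distance greater than one from the points of the arc of `V0` (and of `V2`).
* `QF0.tip` : if `V0 = (a, b | m, n)`, `V2 = (a, f | e, m)`, `e`, `f` the two other colours of `V0`, then
  `T x = {m, n, e}` and `x` is an end of an exact `m, n`-arc of `S(V0)` and of an exact `e, m`-arc of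
  `S(V2)`.
-/

open Set Filter Topology Metric

noncomputable section

namespace Vale.Agent.P032.Six

open Vale.Agent.P032.S5 Vale.Agent.P032.S5.H767 Vale.Agent.P032.H961 Vale.Agent.P032.H678

variable {U : Fin 6 → Set ℂ} {T : ℂ → Set (Fin 6)} {Inv : ℂ → ℂ → Prop}

/-- `x = V0 + V2 - V1` is on `S(V0)` -/
theorem dist_tip780 {V0 V1 V2 : ℂ} (h1 : dist V1 V2 = 1) : dist (V0 + V2 - V1) V0 = 1 := by
  rw [dist_eq_norm] at h1 ⊢
  rw [← norm_neg] at h1
  rw [← h1]
  congr 1
  ring

/-- **the tip is far from the arc of `V0`** -/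
theorem tip_far780 {V0 V1 V2 y : ℂ} (h01 : dist V1 V0 = 1) (h12 : dist V1 V2 = 1)
    (hy : dist y V0 = 1) (h02 : dist V0 V2 ≤ 1) (hy1 : dist y V1 ≤ 1)
    (hlt : dist V0 V2 < 1 ∨ dist y V1 < 1) : 1 < dist y (V0 + V2 - V1) := by
  have e1 : Complex.normSq (V1 - V0) = 1 := normSq_one h01
  have e2 : Complex.normSq (V1 - V2) = 1 := normSq_one h12
  have e3 : Complex.normSq (y - V0) = 1 := normSq_one hy
  have e4 : Complex.normSq (V0 - V2) ≤ 1 := by
    rw [← sq_dist']
    have := dist_nonneg (x := V0) (y := V2)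
    nlinarith
  have e5 : Complex.normSq (y - V1) ≤ 1 := by
    rw [← sq_dist']
    have := dist_nonneg (x := y) (y := V1)
    nlinarith
  have e6 : Complex.normSq (V0 - V2) + Complex.normSq (y - V1) < 2 := by
    rcases hlt with h | h
    · have h1 : Complex.normSq (V0 - V2) < 1 := by
        rw [← sq_dist']
        have := dist_nonneg (x := V0) (y := V2)
        nlinarith
      linarith
    · have h1 : Complex.normSq (y - V1) < 1 := by
        rw [← sq_dist']
        have := dist_nonneg (x := y) (y := V1)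
        nlinarith
      linarith
  by_contra hcon
  push Not at hcon
  have e7 : Complex.normSq (y - (V0 + V2 - V1)) ≤ 1 := by
    rw [← sq_dist']
    have := dist_nonneg (x := y) (y := V0 + V2 - V1)
    nlinarith
  simp only [Complex.normSq_apply, Complex.sub_re, Complex.sub_im, Complex.add_re,
    Complex.add_im] at e1 e2 e3 e6 e7
  -- the scalar product of `y - x` and `V1 - V0` is greater than one
  have e8 : 1 < (y.re - (V0.re + V2.re - V1.re)) * (V1.re - V0.re) +
      (y.im - (V0.im + V2.im - V1.im)) * (V1.im - V0.im) := by nlinarith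
  nlinarith [sq_nonneg ((y.re - (V0.re + V2.re - V1.re)) - (V1.re - V0.re)),
    sq_nonneg ((y.im - (V0.im + V2.im - V1.im)) - (V1.im - V0.im))]

/-- **the tip**, form with order at most three -/
theorem tip_pal780 (h : Irr U T) {V0 V1 V2 : ℂ} {a b m n e f : Fin 6}
    (nd : [a, b, m, n, e, f].Nodup) (h0 : DPt T V0 a b m n) (h2 : DPt T V2 a f e m)
    (h01 : dist V1 V0 = 1) (h12 : dist V1 V2 = 1) (hn02 : V0 ≠ V2)
    (hlt : dist V0 V2 < 2)
    (hx3 : (T (V0 + V2 - V1)).ncard ≤ 3)
    (hc0 : V0 + V2 - V1 ∉ closure (Ex T V0 {a, b})) :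
    T (V0 + V2 - V1) = {m, n, e} ∧ V0 + V2 - V1 ∈ closure (Ex T V0 {m, n}) ∧
      V0 + V2 - V1 ∈ closure (Ex T V2 {e, m}) := by
  set x := V0 + V2 - V1 with hx
  have hx0 : dist x V0 = 1 := dist_tip780 h12
  have hx2 : dist x V2 = 1 := by
    have : x = V2 + V0 - V1 := by rw [hx]; ring
    rw [this]
    exact dist_tip780 h01
  have hne2 : V0 + V2 ≠ 2 * x := fun hc => by
    have e1 : V0 - V2 = 2 * (V0 - x) := by linear_combination -hc
    have e2 : dist V0 V2 = 2 := by
      rw [dist_eq_norm, e1, norm_mul, ← dist_eq_norm, dist_comm V0 x, hx0]; simp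
    linarith
  have nd' := nd
  simp only [List.nodup_cons, List.mem_cons, List.not_mem_nil, or_false, not_or,
    List.nodup_nil, and_true, not_false_eq_true] at nd'
  obtain ⟨⟨hab, ham, han, hae, haf⟩, ⟨hbm, hbn, hbe, hbf⟩, ⟨hmn, hme, hmf⟩, ⟨hne, hnf⟩, hef⟩ := nd'
  have hall : ∀ i : Fin 6, i = a ∨ i = b ∨ i = m ∨ i = n ∨ i = e ∨ i = f := by
    intro i
    have h1 : [a, b, m, n, e, f].toFinset = Finset.univ :=
      Finset.eq_univ_of_card _ (by rw [List.toFinset_card_of_nodup nd]; rfl)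
    have h2 : i ∈ [a, b, m, n, e, f].toFinset := by rw [h1]; exact Finset.mem_univ i
    simpa using h2
  have hcov : ∀ i, i ∈ T V0 ∨ i ∈ T V2 := by
    intro i
    rw [h0.pal, h2.pal]
    rcases hall i with rfl | rfl | rfl | rfl | rfl | rfl <;> simp
  have hnb : b ∉ T V2 := by
    rw [h2.pal]
    simp only [mem_insert_iff, mem_singleton_iff, not_or]
    exact ⟨fun e => hab e.symm, hbf, hbe, hbm⟩
  have hnn : n ∉ T V2 := by
    rw [h2.pal]
    simp only [mem_insert_iff, mem_singleton_iff, not_or]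
    exact ⟨fun e => han e.symm, hnf, hne, fun e => hmn e.symm⟩
  have hne0 : e ∉ T V0 := by
    rw [h0.pal]
    simp only [mem_insert_iff, mem_singleton_iff, not_or]
    exact ⟨fun e => hae e.symm, fun e => hbe e.symm, fun e => hme e.symm, fun e => hne e.symm⟩
  have hnf0 : f ∉ T V0 := by
    rw [h0.pal]
    simp only [mem_insert_iff, mem_singleton_iff, not_or]
    exact ⟨fun e => haf e.symm, fun e => hbf e.symm, fun e => hmf e.symm, fun e => hnf e.symm⟩
  have ha0 : a ∈ T V0 := by rw [h0.pal]; simp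
  have hm0 : m ∈ T V0 := by rw [h0.pal]; simp
  have ha2 : a ∈ T V2 := by rw [h2.pal]; simp
  have hm2 : m ∈ T V2 := by rw [h2.pal]; simp
  have hb0 : b ∈ T V0 := by rw [h0.pal]; simp
  have hn0 : n ∈ T V0 := by rw [h0.pal]; simp
  have he2 : e ∈ T V2 := by rw [h2.pal]; simp
  have hf2 : f ∈ T V2 := by rw [h2.pal]; simp
  rcases contact h (TP.of_dpt h h0) (TP.of_dpt h h2) hcov hn02 hne2 hx0 hx2 hx3 with
    ⟨R, hR, hRW, hpR⟩ | ⟨R, hR, hRV, hpR⟩ | ⟨R, R', i, j, k, hR, hR', hpR, hpR', hi, hj, hkV, hkW,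
      e1, e2, e3⟩
  · exfalso
    rcases hR with rfl | rfl
    · have : a ∈ (T V2)ᶜ := by rw [← hRW]; simp
      exact this ha2
    · have : m ∈ (T V2)ᶜ := by rw [← hRW]; simp
      exact this hm2
  · exfalso
    rcases hR with rfl | rfl
    · have : a ∈ (T V0)ᶜ := by rw [← hRV]; simp
      exact this ha0
    · have : m ∈ (T V0)ᶜ := by rw [← hRV]; simp
      exact this hm0
  · rcases hR with rfl | rfl
    · exact absurd hpR hc0
    · -- `R = {m, n}` : `i = n`, `k = m`
      have hin : i = n := by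
        have : i ∈ ({m, n} : Set (Fin 6)) := by rw [e1]; simp
        rcases this with h | h
        · exact absurd (h ▸ hm2) hi
        · exact h
      subst hin
      have hkm : k = m := by
        have : m ∈ ({i, k} : Set (Fin 6)) := by rw [← e1]; simp
        rcases this with h | h
        · exact absurd h hmn
        · exact h.symm
      subst hkm
      rcases hR' with rfl | rfl
      · exfalso
        have : k ∈ ({a, f} : Set (Fin 6)) := by rw [e2]; simp
        rcases this with h | h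
        · exact ham h.symm
        · exact hmf h
      · have hje : j = e := by
          have : j ∈ ({e, k} : Set (Fin 6)) := by rw [e2]; simp
          rcases this with h | h
          · exact h
          · exact absurd (h ▸ hkV) hj
        subst hje
        refine ⟨?_, hpR, hpR'⟩
        rw [e3]
        ext l
        simp only [mem_insert_iff, mem_singleton_iff]
        tauto

/-- **The tip over the side `V0 V2` of a chain** `V0 = (a, b | m, n)`, `V1`, `V2 = (a, f | e, m)` -/
theorem QF0.tip780 (h : Irr U T) {V0 V1 V2 W0 W2 : ℂ} {a b m n e f : Fin 6}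
    {a' b' m' n' e' f' e'' f'' : Fin 6} (H0 : QF0 T V0 a b m n e f V1 W0)
    (H1 : QF0 T V1 a' b' m' n' e' f' V2 V0) (H2 : QF0 T V2 a f e m e'' f'' W2 V1) :
    dist (V0 + V2 - V1) V0 = 1 ∧ dist (V0 + V2 - V1) V2 = 1 ∧
      T (V0 + V2 - V1) = {m, n, e} ∧ V0 + V2 - V1 ∈ closure (Ex T V0 {m, n}) ∧
      V0 + V2 - V1 ∈ closure (Ex T V2 {e, m}) ∧
      (∀ y ∈ closure (Ex T V0 {a, b}), 1 < dist y (V0 + V2 - V1)) ∧
      ∀ y ∈ closure (Ex T V2 {a, f}), 1 < dist y (V0 + V2 - V1) := by
  have h01 : dist V1 V0 = 1 := H0.dist1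
  have h12 : dist V1 V2 = 1 := by rw [dist_comm]; exact H1.dist1
  have h02 : dist V0 V2 < 1 := by rw [dist_comm]; exact H1.dist12
  have hfar0 : ∀ y ∈ closure (Ex T V0 {a, b}), 1 < dist y (V0 + V2 - V1) := fun y hy =>
    tip_far780 h01 h12 (dist_of_closure hy) h02.le (H0.diam h hy (H0.mem1 h)).le (Or.inl h02)
  have hfar2 : ∀ y ∈ closure (Ex T V2 {a, f}), 1 < dist y (V0 + V2 - V1) := fun y hy => by
    have e : V0 + V2 - V1 = V2 + V0 - V1 := by ring
    rw [e]
    exact tip_far780 h12 h01 (dist_of_closure hy) (by rw [dist_comm]; exact h02.le)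
      (H2.diam h hy (H2.mem2 h)).le (Or.inl (by rw [dist_comm]; exact h02))
  have hx0 : dist (V0 + V2 - V1) V0 = 1 := dist_tip780 h12
  have hx2 : dist (V0 + V2 - V1) V2 = 1 := by
    have e : V0 + V2 - V1 = V2 + V0 - V1 := by ring
    rw [e]
    exact dist_tip780 h01
  have hc0 : V0 + V2 - V1 ∉ closure (Ex T V0 {a, b}) := fun hc => by
    have := hfar0 _ hc
    rw [dist_self] at this
    linarith
  have hx3 : (T (V0 + V2 - V1)).ncard ≤ 3 := (H0.le3 h hx0).resolve_left hc0
  obtain ⟨e1, e2, e3⟩ := tip_pal780 h H0.nd H0.dpt H2.dpt h01 h12 H1.ne12.symm (by linarith) hx3 hc0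
  exact ⟨hx0, hx2, e1, e2, e3, hfar0, hfar2⟩

end Vale.Agent.P032.Six
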