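import Vale.Agent.P032.H780.TipI
import Vale.Agent.P032.H553.ClR1W
import Vale.Agent.P032.H678.VW4

/-!
# P032, X, state A: bookkeeping for the ring about the tip

`StW.offA780` : a three coloured point is in no closed arc of a connecting pair.
`exists_pair780`, `pair_time780` : a pair of points of the circle at distance one and its time modulo
six.  `col_off780` : of two points of the circle at distance less than one, one is not in the column
of `t₀`.
-/

open Set Filter Topology Metric

noncomputable section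

namespace Vale.Agent.P032.Six

open Vale.Agent.P032.S5 Vale.Agent.P032.S5.H767 Vale.Agent.P032.H961 Vale.Agent.P032.H678

variable {U : Fin 6 → Set ℂ} {T : ℂ → Set (Fin 6)} {f : ℂ → Set (Fin 6)} {x p q : ℂ}

/-- a three coloured point is in no closed arc of a connecting pair -/
theorem StW.offA780 (W : StW T f) (h : Irr U T) (h3 : (T x).ncard = 3) : OffA T f x := by
  intro z a b m n hz hC hzx hcl
  obtain ⟨a', b', m', n', e', f', V1, V2, H⟩ := W.w.qf hz
  have hg := W.gauge H
  have hp := H.dpt.pal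
  have e : T z \ f z = {a', b'} := by
    rw [hp, hg]
    ext i
    have h1 := H.dpt.ac
    have h2 := H.dpt.ad
    have h3 := H.dpt.bc
    have h4 := H.dpt.bd
    constructor
    · rintro ⟨h5 | h5 | h5, h6⟩
      · exact Or.inl h5
      · exact Or.inr h5
      · exact absurd h5 h6
    · rintro (rfl | rfl)
      · exact ⟨Or.inl rfl, by rintro (h5 | h5); exacts [h1 h5, h2 h5]⟩
      · exact ⟨Or.inr (Or.inl rfl), by rintro (h5 | h5); exacts [h3 h5, h4 h5]⟩
  rw [e] at hC
  rw [← hC] at hcl
  rcases H.toQI0.cases h hcl with h1 | h1 | h1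
  · have := H.toQI0.ord1
    rw [← h1] at this
    omega
  · have := H.toQI0.ord2
    rw [← h1] at this
    omega
  · have h2 := ex_self h1
    rw [h2] at h3
    have := (Set.ncard_insert_le a' ({b'} : Set (Fin 6))).trans (by simp : _ ≤ 2)
    omega

theorem pt_h180_780 (x : ℂ) (t : ℝ) : Vale.Agent.P032.H180.pt x t = H767.pt x t := by
  unfold Vale.Agent.P032.H180.pt H767.pt cis
  congr 2
  push_cast
  ring

theorem pt_int780 (x : ℂ) (t : ℝ) (n : ℤ) : H767.pt x (t + 6 * n) = H767.pt x t := by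
  have hp : Function.Periodic (H767.pt x) 6 := fun y => pt_six x y
  have := hp.int_mul n t
  rw [mul_comm]
  exact this

/-- points in one column are equal or at distance at least one -/
theorem dist_int780 {s t : ℝ} {n : ℤ} (h : t = s + n) (h0 : H767.pt x t ≠ H767.pt x s) :
    1 ≤ dist (H767.pt x t) (H767.pt x s) := by
  obtain ⟨m, hm⟩ : ∃ m, m = n % 6 := ⟨_, rfl⟩
  have h1 : n = m + 6 * (n / 6) := by rw [hm]; omega
  have h2 : 0 ≤ m ∧ m < 6 := by rw [hm]; omega
  have h3 : H767.pt x t = H767.pt x (s + m) := by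
    have : t = s + m + 6 * ((n / 6 : ℤ) : ℝ) := by
      rw [h]
      have : (n : ℝ) = ((m + 6 * (n / 6) : ℤ) : ℝ) := by exact_mod_cast h1
      rw [this]
      push_cast
      ring
    rw [this, pt_int780]
  rw [h3] at h0 ⊢
  obtain ⟨h4, h5⟩ := h2
  interval_cases m
  · simp at h0
  · have := dist_pt_one x s
    rw [dist_comm] at this
    push_cast
    exact this.ge
  · refine (dist_pt_gt x ?_ ?_).le <;> push_cast <;> norm_num
  · refine (dist_pt_gt x ?_ ?_).le <;> push_cast <;> norm_num
  · refine (dist_pt_gt x ?_ ?_).le <;> push_cast <;> norm_num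
  · have := dist_pt_one x (s + 5)
    have e : s + 5 + 1 = s + 6 := by ring
    rw [e, pt_six] at this
    push_cast
    exact this.ge

/-- of two points of the circle at distance less than one, one is not in the column of `t₀` -/
theorem col_off780 {s t t₀ : ℝ} (hne : H767.pt x t ≠ H767.pt x s) (hd : dist (H767.pt x t) (H767.pt x s) < 1) :
    (∀ n : ℤ, t ≠ t₀ + n) ∨ ∀ n : ℤ, s ≠ t₀ + n := by
  by_contra hcon
  push Not at hcon
  obtain ⟨⟨n, hn⟩, m, hm⟩ := hcon
  have := dist_int780 (x := x) (s := s) (t := t) (n := n - m) (by rw [hn, hm]; push_cast; ring) hne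
  linarith

/-- the time of a pair -/
theorem exists_pair780 (hp : dist p x = 1) (hq : dist q x = 1) (hpq : dist p q = 1) :
    ∃ t, (H767.pt x t = p ∧ H767.pt x (t + 1) = q) ∨ (H767.pt x t = q ∧ H767.pt x (t + 1) = p) := by
  obtain ⟨r, hr⟩ := Vale.Agent.P032.S5.H349.exists_pt hp
  obtain ⟨a, ha, hqa⟩ := exists_rel r hq
  have h1 := H383.sq_dist_pt x (r + a) r
  rw [← hqa, ← hr, dist_comm, hpq] at h1
  have hpi := Real.pi_pos
  have e1 : (r + a - r) * (Real.pi / 3) = a * (Real.pi / 3) := by ring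
  rw [e1] at h1
  have h2 : Real.cos (a * (Real.pi / 3)) = 1 / 2 := by linarith
  have h3 : |a| = 1 := by
    have h4 : Real.cos (|a| * (Real.pi / 3)) = Real.cos (1 * (Real.pi / 3)) := by
      rw [one_mul, Real.cos_pi_div_three, ← h2, ← Real.cos_abs (a * (Real.pi / 3)), abs_mul,
        abs_of_pos (by positivity : 0 < Real.pi / 3)]
    have h5 := Real.injOn_cos ⟨by positivity, by nlinarith [abs_nonneg a]⟩
      ⟨by positivity, by nlinarith⟩ h4
    exact mul_right_cancel₀ (by positivity) h5
  rcases (abs_eq (by norm_num : (0 : ℝ) ≤ 1)).1 h3 with h4 | h4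
  · exact ⟨r, Or.inl ⟨hr.symm, by rw [hqa, h4]⟩⟩
  · refine ⟨r - 1, Or.inr ⟨?_, ?_⟩⟩
    · rw [hqa, h4]; rfl
    · rw [hr]; congr 1; ring

/-- the time of a pair is unique modulo six -/
theorem pair_time780 {s t : ℝ} (ht : (H767.pt x t = p ∧ H767.pt x (t + 1) = q) ∨ (H767.pt x t = q ∧ H767.pt x (t + 1) = p))
    (hs : (H767.pt x s = p ∧ H767.pt x (s + 1) = q) ∨ (H767.pt x s = q ∧ H767.pt x (s + 1) = p)) :
    ∃ n : ℤ, t = s + 6 * n := by
  have cross : H767.pt x t = H767.pt x (s + 1) → H767.pt x (t + 1) = H767.pt x s → False := by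
    intro h1 h2
    obtain ⟨n, hn⟩ := Vale.Agent.P032.S5.H349.pt_eq h1
    obtain ⟨m, hm⟩ := Vale.Agent.P032.S5.H349.pt_eq h2
    have h3 : (6 * m - 6 * n : ℝ) = 2 := by linarith
    have h4 : (6 * m - 6 * n : ℤ) = 2 := by exact_mod_cast h3
    omega
  rcases ht with ⟨h1, h2⟩ | ⟨h1, h2⟩ <;> rcases hs with ⟨h3, h4⟩ | ⟨h3, h4⟩
  · exact Vale.Agent.P032.S5.H349.pt_eq (h1.trans h3.symm)
  · exact (cross (h1.trans h4.symm) (h2.trans h3.symm)).elim
  · exact (cross (h1.trans h4.symm) (h2.trans h3.symm)).elim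
  · exact Vale.Agent.P032.S5.H349.pt_eq (h1.trans h3.symm)

end Vale.Agent.P032.Six
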